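import Vale.Agent.Lib.P066B.Star
import Vale.Agent.Lib.P066H.Defs

/-!
Uniformity in the number of variables, the positivity cone, and the induction over the vertices.
-/

set_option linter.unusedSectionVars false
set_option linter.unusedVariables false
set_option linter.unusedSimpArgs false

namespace Vale.Agent.Lib.P066B

open Finset

/-- Target ring in `N` variables. -/
abbrev RN (N : ℕ) := MvPolynomial (Fin N) (Polynomial ℤ)

/-- The parameter `q`. -/
noncomputable def qN (N : ℕ) : RN N := MvPolynomial.C Polynomial.X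

/-- The variables. -/
noncomputable def tN (N : ℕ) : Fin N → RN N := MvPolynomial.X

lemma qN_ne_one (N : ℕ) : qN N ≠ 1 := by
  intro h
  have h1 : (MvPolynomial.C Polynomial.X : RN N) = MvPolynomial.C 1 := by
    rw [MvPolynomial.C_1]
    exact h
  have h2 := MvPolynomial.C_injective (Fin N) (Polynomial ℤ) h1
  have h3 := congrArg (Polynomial.eval (0 : ℤ)) h2
  simp at h3

/-- Formal symmetric functions with coefficients in `ℕ[q]`; variable `k` stands for `e_(k+1)`. -/
abbrev FF := MvPolynomial ℕ (Polynomial ℕ)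

/-- Coefficients. -/
noncomputable def coefHom (N : ℕ) : Polynomial ℕ →+* RN N :=
  (MvPolynomial.C).comp (Polynomial.mapRingHom (Nat.castRingHom ℤ))

lemma coefHom_X (N : ℕ) : coefHom N Polynomial.X = qN N := by
  simp [coefHom, qN]

/-- Evaluation of formal symmetric functions. -/
noncomputable def ev (N : ℕ) : FF →+* RN N :=
  MvPolynomial.eval₂Hom (coefHom N) (fun k => MvPolynomial.esymm (Fin N) (Polynomial ℤ) (k + 1))

/-- Weighted homogeneity, the variable `k` having weight `k + 1`. -/
abbrev WH (w : ℕ) (F : FF) : Prop := MvPolynomial.IsWeightedHomogeneous (fun k : ℕ => k + 1) F w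

/-- `e_i` in the formal ring. -/
noncomputable def Ehat : ℕ → FF
  | 0 => 1
  | i + 1 => MvPolynomial.X i

lemma WH_Ehat : ∀ i, WH i (Ehat i)
  | 0 => MvPolynomial.isWeightedHomogeneous_one _ _
  | i + 1 => MvPolynomial.isWeightedHomogeneous_X _ _ i

lemma ev_Ehat (N : ℕ) : ∀ i, ev N (Ehat i) = eN (tN N) i
  | 0 => by simp [Ehat, eN_zero]
  | i + 1 => by
    simp only [Ehat, ev, MvPolynomial.eval₂Hom_X']
    rfl

lemma ev_C (N : ℕ) (p : Polynomial ℕ) : ev N (MvPolynomial.C p) = coefHom N p := by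
  simp [ev]

lemma WH_mul {a b : ℕ} {F G : FF} (hF : WH a F) (hG : WH b G) : WH (a + b) (F * G) :=
  hF.mul hG

lemma qi_comm_hom (N k : ℕ) : coefHom N (qi Polynomial.X k) = qi (coefHom N Polynomial.X) k :=
  map_qi_semi (coefHom N) Polynomial.X k

/-- Families of functions of a colour, in all numbers of variables. -/
abbrev Fam := ∀ N : ℕ, Fin N → RN N

/-- `q` as a family. -/
noncomputable def qF : Fam := fun N _ => qN N

/-- `e_n` as a family. -/
noncomputable def eF (n : ℕ) : Fam := fun N _ => eN (tN N) n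

/-- The basic functions as a family. -/
noncomputable def Fb (m : ℕ) : Fam := fun N c => FN (qN N) (tN N) m c

/-- The block transfers as a family. -/
noncomputable def PhiF (m r : ℕ) : Fam := fun N c => PhiN (qN N) (tN N) m r c

/-- Constant families with a formal positive expression of weight `d`. -/
def Sp (d : ℕ) : Set Fam := {v | ∃ p : FF, WH d p ∧ ∀ N c, v N c = ev N p}

/-- The generators of the cone. -/
def gens (d : ℕ) : Set Fam :=
  {g | ∃ (a w : ℕ) (p : FF), a + w = d ∧ WH w p ∧ g = fun N c => ev N p * FN (qN N) (tN N) a c}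

/-- The positivity cone. -/
noncomputable def coneC (d : ℕ) : AddSubmonoid Fam := AddSubmonoid.closure (gens d)

lemma Sp_mul_cone {d d' : ℕ} {a b : Fam} (ha : a ∈ Sp d) (hb : b ∈ coneC d') :
    a * b ∈ coneC (d + d') := by
  obtain ⟨p, hp, hpa⟩ := ha
  unfold coneC at hb
  induction hb using AddSubmonoid.closure_induction with
  | mem b h =>
    obtain ⟨a', w, p', had, hp', rfl⟩ := h
    refine AddSubmonoid.subset_closure ⟨a', d + w, p * p', by omega, WH_mul hp hp', ?_⟩
    funext N c
    simp only [Pi.mul_apply, hpa, map_mul]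
    ring
  | zero =>
    rw [mul_zero]
    exact zero_mem _
  | add x y _ _ hx hy =>
    rw [mul_add]
    exact add_mem hx hy

lemma Gr_F : Gr (fun d => Sp d) (fun d => (coneC d : Set Fam)) qF eF Fb where
  S_zero d := ⟨0, MvPolynomial.isWeightedHomogeneous_zero _ _ _, fun N c => by simp⟩
  S_add := by
    rintro d a b ⟨p, hp, h⟩ ⟨p', hp', h'⟩
    exact ⟨p + p', hp.add hp', fun N c => by simp [h, h']⟩
  S_mul := by
    rintro d d' a b ⟨p, hp, h⟩ ⟨p', hp', h'⟩
    exact ⟨p * p', WH_mul hp hp', fun N c => by simp [h, h']⟩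
  S_one := ⟨1, MvPolynomial.isWeightedHomogeneous_one _ _, fun N c => by simp⟩
  S_q := ⟨MvPolynomial.C Polynomial.X, MvPolynomial.isWeightedHomogeneous_C _ _,
    fun N c => by rw [ev_C, coefHom_X]; rfl⟩
  S_e n := ⟨Ehat n, WH_Ehat n, fun N c => (ev_Ehat N n).symm⟩
  C_zero d := zero_mem _
  C_add := fun ha hb => add_mem ha hb
  C_mul := fun ha hb => Sp_mul_cone ha hb
  C_F n := by
    refine AddSubmonoid.subset_closure ⟨n, 0, 1, rfl, MvPolynomial.isWeightedHomogeneous_one _ _, ?_⟩
    funext N c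
    simp [Fb]

/-- Evaluation at a number of variables and a colour. -/
noncomputable def evF (N : ℕ) (c : Fin N) : Fam →+* RN N :=
  (Pi.evalRingHom (fun _ : Fin N => RN N) c).comp (Pi.evalRingHom (fun N : ℕ => Fin N → RN N) N)

lemma star_F : starL qF eF PhiF = starR qF eF Fb := by
  refine ext2 fun a b => ?_
  funext N c
  have h : cf (starL (qN N) (eN (tN N)) (fun m r => PhiN (qN N) (tN N) m r c)) a b
      = cf (starR (qN N) (eN (tN N)) (fun m => FN (qN N) (tN N) m c)) a b := by
    rw [starN _ _ (qN_ne_one N) c]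
  have h1 : cf (starL qF eF PhiF) a b N c = cf (map2 (evF N c) (starL qF eF PhiF)) a b := by
    rw [cf_map2]
    rfl
  have h2 : cf (starR qF eF Fb) a b N c = cf (map2 (evF N c) (starR qF eF Fb)) a b := by
    rw [cf_map2]
    rfl
  rw [h1, h2, map2_starL, map2_starR]
  exact h

lemma evF_qF (N : ℕ) (c : Fin N) : evF N c qF = qN N := rfl

lemma evF_Fb (m N : ℕ) (c : Fin N) : evF N c (Fb m) = FN (qN N) (tN N) m c := rfl

lemma evF_PhiF (m r N : ℕ) (c : Fin N) : evF N c (PhiF m r) = PhiN (qN N) (tN N) m r c := rfl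

lemma J_F (r : ℕ) : PhiF 0 (r + 1) = qi qF (r + 1) * Fb (r + 1)
    + ∑ k ∈ Ico 1 (r + 1), qF * qi qF (k - 1) * PhiF k (r + 1 - k) := by
  funext N c
  have h := J_N (qN N) (tN N) (qN_ne_one N) r c
  have e1 : PhiF 0 (r + 1) N c = TT (qN N) (tN N) 0 r c := rfl
  have e2 : (qi qF (r + 1) * Fb (r + 1)
      + ∑ k ∈ Ico 1 (r + 1), qF * qi qF (k - 1) * PhiF k (r + 1 - k)) N c
      = evF N c (qi qF (r + 1) * Fb (r + 1)
      + ∑ k ∈ Ico 1 (r + 1), qF * qi qF (k - 1) * PhiF k (r + 1 - k)) := rfl
  rw [e1, e2, map_add, map_mul, map_sum, map_qi, evF_qF, evF_Fb, h]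
  refine congrArg₂ (· + ·) rfl ?_
  refine sum_congr rfl fun k hk => ?_
  rw [map_mul, map_mul, map_qi, evF_qF, evF_PhiF]
  have hk' := mem_Ico.mp hk
  have h3 : r + 1 - k = (r - k) + 1 := by omega
  rw [h3]
  rfl

theorem PhiF_mem (r m : ℕ) : PhiF m r ∈ coneC (m + r) :=
  main_abs (S := fun d => Sp d) (C := fun d => (coneC d : Set Fam)) Gr_F
    (by funext N c; exact eN_zero _) (fun m => rfl) star_F J_F r m

/-- Block transfer on families. -/
noncomputable def TrF (r : ℕ) (g : Fam) : Fam := fun N c => Tr (qN N) (tN N) r (g N) c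

lemma TrF_mem {d : ℕ} {g : Fam} (hg : g ∈ coneC d) (r : ℕ) : TrF r g ∈ coneC (d + r + 1) := by
  unfold coneC at hg
  induction hg using AddSubmonoid.closure_induction with
  | mem g h =>
    obtain ⟨a, w, p, had, hp, rfl⟩ := h
    have h1 : TrF r (fun N c => ev N p * FN (qN N) (tN N) a c)
        = (fun N _ => ev N p) * PhiF a (r + 1) := by
      funext N c
      have h2 : (fun c => ev N p * FN (qN N) (tN N) a c)
          = ev N p • FN (qN N) (tN N) a := rfl
      simp only [TrF, h2, map_smul, Pi.smul_apply, smul_eq_mul, Pi.mul_apply]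
      rfl
    rw [h1]
    have h3 : d + r + 1 = w + (a + (r + 1)) := by omega
    rw [h3]
    exact Sp_mul_cone ⟨p, hp, fun N c => rfl⟩ (PhiF_mem (r + 1) a)
  | zero =>
    have h1 : TrF r 0 = 0 := by
      funext N c
      have : (0 : Fam) N = 0 := rfl
      simp [TrF, this]
    rw [h1]
    exact zero_mem _
  | add x y _ _ hx hy =>
    have h1 : TrF r (x + y) = TrF r x + TrF r y := by
      funext N c
      have : (x + y) N = x N + y N := rfl
      simp [TrF, this]
    rw [h1]
    exact add_mem hx hy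

lemma sumF_mem {d : ℕ} {g : Fam} (hg : g ∈ coneC d) :
    ∃ p : FF, WH (d + 1) p ∧ ∀ N, ∑ c, tN N c * g N c = ev N p := by
  unfold coneC at hg
  induction hg using AddSubmonoid.closure_induction with
  | mem g h =>
    obtain ⟨a, w, p, had, hp, rfl⟩ := h
    refine ⟨p * (MvPolynomial.C (qi Polynomial.X (a + 1)) * Ehat (a + 1)), ?_, ?_⟩
    · have h1 : WH (0 + (a + 1)) (MvPolynomial.C (qi Polynomial.X (a + 1)) * Ehat (a + 1)) :=
        WH_mul (MvPolynomial.isWeightedHomogeneous_C _ _) (WH_Ehat (a + 1))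
      have h2 := WH_mul hp h1
      have h3 : w + (0 + (a + 1)) = d + 1 := by omega
      rwa [h3] at h2
    · intro N
      have h1 := sum_FN (qN N) (tN N) (qN_ne_one N) a
      rw [map_mul, map_mul, ev_C, ev_Ehat, qi_comm_hom N, coefHom_X, ← h1, mul_sum]
      refine sum_congr rfl fun c _ => ?_
      ring
  | zero =>
    exact ⟨0, MvPolynomial.isWeightedHomogeneous_zero _ _ _, fun N => by simp⟩
  | add x y _ _ hx hy =>
    obtain ⟨p, hp, h⟩ := hx
    obtain ⟨p', hp', h'⟩ := hy
    refine ⟨p + p', hp.add hp', fun N => ?_⟩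
    rw [map_add, ← h, ← h', ← sum_add_distrib]
    refine sum_congr rfl fun c _ => ?_
    simp only [Pi.add_apply]
    ring

end Vale.Agent.Lib.P066B
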