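import Vale.Agent.Lib.P066B.Final

/-!
The colouring sum as an iterated transfer, and elementary positivity for Hessenberg functions with
`h i ≤ i + 2`.
-/

set_option linter.unusedSectionVars false
set_option linter.unusedVariables false
set_option linter.unusedSimpArgs false

namespace Vale.Agent.Lib.P066B

open Finset Vale.Agent.Lib.P066H

section graph

variable {R : Type*} [CommRing R] {N : ℕ} (q : R) (x : Fin N → R)

/-- Weight of a colouring, as a product over the edges. -/
def wtf (h : ℕ → ℕ) (n : ℕ) (f : Fin n → Fin N) : R :=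
  (∏ i : Fin n, ∏ j : Fin n, if i < j ∧ (j : ℕ) ≤ h i then ef q (f i) (f j) else 1)
    * ∏ i : Fin n, x (f i)

/-- The Hessenberg function after removing the first vertex. -/
def shiftH (h : ℕ → ℕ) : ℕ → ℕ := fun i => h (i + 1) - 1

lemma wtf_cons (h : ℕ → ℕ) (n : ℕ) (c : Fin N) (f : Fin n → Fin N) :
    wtf q x h (n + 1) (Fin.cons c f)
      = x c * (∏ j : Fin n, if (j : ℕ) + 1 ≤ h 0 then ef q c (f j) else 1)
        * wtf q x (shiftH h) n f := by
  have h0 : (∏ j : Fin (n + 1), if (0 : Fin (n + 1)) < j ∧ (j : ℕ) ≤ h ((0 : Fin (n + 1)) : ℕ)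
        then ef q ((Fin.cons c f : Fin (n + 1) → Fin N) 0) ((Fin.cons c f : Fin (n + 1) → Fin N) j)
        else 1)
      = ∏ j : Fin n, if (j : ℕ) + 1 ≤ h 0 then ef q c (f j) else 1 := by
    rw [Fin.prod_univ_succ]
    simp [Fin.succ_pos]
  have h1 : ∀ i : Fin n, (∏ j : Fin (n + 1), if i.succ < j ∧ (j : ℕ) ≤ h ((i.succ : Fin (n + 1)) : ℕ)
        then ef q ((Fin.cons c f : Fin (n + 1) → Fin N) i.succ)
          ((Fin.cons c f : Fin (n + 1) → Fin N) j) else 1)
      = ∏ j : Fin n, if i < j ∧ (j : ℕ) ≤ shiftH h i then ef q (f i) (f j) else 1 := by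
    intro i
    rw [Fin.prod_univ_succ]
    have h2 : ¬ (i.succ < (0 : Fin (n + 1))) := Fin.not_lt_zero _
    rw [if_neg (fun h3 => h2 h3.1), one_mul]
    refine prod_congr rfl fun j _ => ?_
    have h3 : (i.succ < j.succ ∧ ((j.succ : Fin (n + 1)) : ℕ) ≤ h ((i.succ : Fin (n + 1)) : ℕ))
        ↔ (i < j ∧ (j : ℕ) ≤ shiftH h i) := by
      simp only [Fin.succ_lt_succ_iff, Fin.val_succ, shiftH, Fin.lt_def]
      omega
    simp only [h3, Fin.cons_succ]
  unfold wtf
  rw [Fin.prod_univ_succ, h0, Fin.prod_univ_succ (fun i => x ((Fin.cons c f : Fin (n + 1) → Fin N) i)),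
    prod_congr rfl (fun i _ => h1 i)]
  simp only [Fin.cons_zero, Fin.cons_succ]
  ring

lemma sum_cons {n : ℕ} (F : (Fin (n + 1) → Fin N) → R) :
    ∑ f, F f = ∑ c, ∑ f' : Fin n → Fin N, F (Fin.cons c f') := by
  let e : Fin N × (Fin n → Fin N) ≃ (Fin (n + 1) → Fin N) :=
    { toFun := fun p => Fin.cons p.1 p.2
      invFun := fun f => (f 0, Fin.tail f)
      left_inv := fun p => by simp [Fin.tail_cons]
      right_inv := fun f => Fin.cons_self_tail f }
  rw [← Fintype.sum_prod_type']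
  exact (Fintype.sum_equiv e _ _ fun p => rfl).symm

/-- The total weight. -/
def L0 (h : ℕ → ℕ) (n : ℕ) : R := ∑ f : Fin n → Fin N, wtf q x h n f

/-- The total weight, with a function of the colour of the first vertex inserted. -/
def L1 (h : ℕ → ℕ) (n : ℕ) (g : Fin N → R) : R :=
  ∑ f : Fin (n + 1) → Fin N, g (f 0) * wtf q x h (n + 1) f

/-- The total weight, with a function of the colours of the first two vertices inserted. -/
def L2 (h : ℕ → ℕ) (n : ℕ) (g : Fin N → Fin N → R) : R :=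
  ∑ f : Fin (n + 2) → Fin N, g (f 0) (f 1) * wtf q x h (n + 2) f

lemma L1_zero (h : ℕ → ℕ) (n : ℕ) (g : Fin N → R) (h0 : h 0 = 0) :
    L1 q x h n g = (∑ c, x c * g c) * L0 q x (shiftH h) n := by
  unfold L1 L0
  rw [sum_cons, sum_mul]
  refine sum_congr rfl fun c _ => ?_
  rw [mul_sum]
  refine sum_congr rfl fun f _ => ?_
  rw [wtf_cons, Fin.cons_zero]
  have h1 : (∏ j : Fin n, if (j : ℕ) + 1 ≤ h 0 then ef q c (f j) else 1) = 1 :=
    prod_eq_one fun j _ => by rw [if_neg (by omega)]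
  rw [h1]
  ring

lemma prod_one_case (h : ℕ → ℕ) (n : ℕ) (c : Fin N) (f : Fin (n + 1) → Fin N) (h0 : h 0 = 1) :
    (∏ j : Fin (n + 1), if (j : ℕ) + 1 ≤ h 0 then ef q c (f j) else 1) = ef q c (f 0) := by
  rw [Fin.prod_univ_succ]
  have h1 : (∏ j : Fin n, if ((j.succ : Fin (n + 1)) : ℕ) + 1 ≤ h 0 then ef q c (f j.succ) else 1)
      = 1 :=
    prod_eq_one fun j _ => by
      rw [if_neg]
      simp only [Fin.val_succ]
      omega
  rw [h1, mul_one, if_pos]
  simp [h0]

lemma prod_two_case (h : ℕ → ℕ) (n : ℕ) (c : Fin N) (f : Fin (n + 2) → Fin N) (h0 : h 0 = 2) :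
    (∏ j : Fin (n + 2), if (j : ℕ) + 1 ≤ h 0 then ef q c (f j) else 1)
      = ef q c (f 0) * ef q c (f 1) := by
  rw [Fin.prod_univ_succ, Fin.prod_univ_succ]
  have h1 : (∏ j : Fin n, if (((j.succ : Fin (n + 1)).succ : Fin (n + 2)) : ℕ) + 1 ≤ h 0
      then ef q c (f (j.succ : Fin (n + 1)).succ) else 1) = 1 :=
    prod_eq_one fun j _ => by
      rw [if_neg]
      simp only [Fin.val_succ]
      omega
  rw [h1, mul_one, if_pos, if_pos]
  · rfl
  · simp [h0]
  · simp [h0]

lemma L1_one (h : ℕ → ℕ) (n : ℕ) (g : Fin N → R) (h0 : h 0 = 1) :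
    L1 q x h (n + 1) g = L1 q x (shiftH h) n (opR q x (opA g)) := by
  unfold L1
  rw [sum_cons, sum_comm]
  refine sum_congr rfl fun f _ => ?_
  rw [opR_apply, sum_mul]
  refine sum_congr rfl fun c _ => ?_
  rw [Fin.cons_zero, wtf_cons, prod_one_case q h n c f h0, opA_apply]
  ring

lemma L1_two (h : ℕ → ℕ) (n : ℕ) (g : Fin N → R) (h0 : h 0 = 2) :
    L1 q x h (n + 2) g = L2 q x (shiftH h) n (opU q x (opA g)) := by
  unfold L1 L2
  rw [sum_cons, sum_comm]
  refine sum_congr rfl fun f _ => ?_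
  rw [opU_apply, sum_mul]
  refine sum_congr rfl fun c _ => ?_
  rw [Fin.cons_zero, wtf_cons, prod_two_case q h n c f h0, opA_apply]
  ring

lemma L2_one (h : ℕ → ℕ) (n : ℕ) (g : Fin N → Fin N → R) (h0 : h 0 = 1) :
    L2 q x h n g = L1 q x (shiftH h) n (opR q x g) := by
  unfold L1 L2
  rw [sum_cons, sum_comm]
  refine sum_congr rfl fun f _ => ?_
  rw [opR_apply, sum_mul]
  refine sum_congr rfl fun c _ => ?_
  rw [Fin.cons_zero, wtf_cons, prod_one_case q h n c f h0]
  have h1 : (Fin.cons c f : Fin (n + 2) → Fin N) 1 = f 0 := rfl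
  rw [h1]
  ring

lemma L2_two (h : ℕ → ℕ) (n : ℕ) (g : Fin N → Fin N → R) (h0 : h 0 = 2) :
    L2 q x h (n + 1) g = L2 q x (shiftH h) n (opU q x g) := by
  unfold L2
  rw [sum_cons, sum_comm]
  refine sum_congr rfl fun f _ => ?_
  rw [opU_apply, sum_mul]
  refine sum_congr rfl fun c _ => ?_
  rw [Fin.cons_zero, wtf_cons, prod_two_case q h n c f h0]
  have h1 : (Fin.cons c f : Fin (n + 3) → Fin N) 1 = f 0 := rfl
  rw [h1]
  ring

lemma L0_zero (h : ℕ → ℕ) : L0 q x h 0 = 1 := by
  simp [L0, wtf]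

lemma L0_succ (h : ℕ → ℕ) (n : ℕ) (g : Fin N → R) (hg : ∀ c, g c = 1) :
    L0 q x h (n + 1) = L1 q x h n g := by
  unfold L0 L1
  refine sum_congr rfl fun f _ => ?_
  rw [hg, one_mul]

end graph

/-- Hessenberg functions with `h i ≤ i + 2` on the vertices `0, ..., n - 1`. -/
structure Band (h : ℕ → ℕ) (n : ℕ) : Prop where
  bd : ∀ i, i < n → i ≤ h i ∧ h i ≤ i + 2 ∧ h i < n
  mono : ∀ i j, i ≤ j → j < n → h i ≤ h j

lemma Band.shift {h : ℕ → ℕ} {n : ℕ} (H : Band h (n + 1)) : Band (shiftH h) n where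
  bd i hi := by
    have := H.bd (i + 1) (by omega)
    simp only [shiftH]
    omega
  mono i j hij hj := by
    have := H.mono (i + 1) (j + 1) (by omega) (by omega)
    simp only [shiftH]
    omega

/-- A scalar family with a formal positive expression of weight `d`. -/
def Scal (d : ℕ) (v : ∀ N : ℕ, RN N) : Prop := ∃ p : FF, WH d p ∧ ∀ N, v N = ev N p

lemma Scal.cast {d d' : ℕ} {v : ∀ N : ℕ, RN N} (h : Scal d v) (hd : d = d') : Scal d' v := by
  rw [← hd]
  exact h

/-- The main induction over the number of vertices. -/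
theorem main_stmt : ∀ m : ℕ,
    (∀ h, Band h m → Scal m fun N => L0 (qN N) (tN N) h m) ∧
    (∀ n, m = n + 1 → ∀ h, Band h m → ∀ (d : ℕ) (g : Fam), g ∈ coneC d →
      Scal (m + d) fun N => L1 (qN N) (tN N) h n (g N)) ∧
    (∀ n, m = n + 2 → ∀ h, Band h m → 1 ≤ h 0 → ∀ (d r : ℕ) (g : Fam), g ∈ coneC d →
      Scal (m + d + r) fun N => L2 (qN N) (tN N) h n
        (((opU (qN N) (tN N)) ^ r : Module.End (RN N) (Fin N → Fin N → RN N)) (opA (g N)))) := by
  intro m
  induction m with
  | zero =>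
    refine ⟨fun h _ => ⟨1, MvPolynomial.isWeightedHomogeneous_one _ _, fun N => ?_⟩,
      fun n hn => absurd hn (by omega), fun n hn => absurd hn (by omega)⟩
    simp [L0_zero]
  | succ m ih =>
    obtain ⟨ih0, ih1, ih2⟩ := ih
    have hP1 : ∀ n, m + 1 = n + 1 → ∀ h, Band h (m + 1) → ∀ (d : ℕ) (g : Fam), g ∈ coneC d →
        Scal (m + 1 + d) fun N => L1 (qN N) (tN N) h n (g N) := by
      intro n hn h hB d g hg
      have hnm : n = m := by omega
      subst hnm
      have hb0 := hB.bd 0 (by omega)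
      have hS := hB.shift
      have hcases : h 0 = 0 ∨ h 0 = 1 ∨ h 0 = 2 := by omega
      rcases hcases with h0 | h0 | h0
      · obtain ⟨p, hp, hpe⟩ := sumF_mem hg
        obtain ⟨p', hp', hpe'⟩ := ih0 _ hS
        refine ⟨p * p', ?_, fun N => ?_⟩
        · have := WH_mul hp hp'
          have h2 : d + 1 + n = n + 1 + d := by omega
          rwa [h2] at this
        · have e := hpe' N
          beta_reduce at e ⊢
          rw [L1_zero _ _ h _ _ h0, map_mul, hpe, e]
      · obtain ⟨n', rfl⟩ : ∃ n', n = n' + 1 := ⟨n - 1, by omega⟩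
        have h1 := ih1 n' rfl _ hS (d + 0 + 1) (TrF 0 g) (TrF_mem hg 0)
        refine (h1.cast (by omega)).imp fun p hp => ⟨hp.1, fun N => ?_⟩
        have e := hp.2 N
        beta_reduce at e ⊢
        rw [L1_one _ _ h _ _ h0, ← e]
        rfl
      · obtain ⟨n', rfl⟩ : ∃ n', n = n' + 2 := ⟨n - 2, by omega⟩
        have hpos : 1 ≤ shiftH h 0 := by
          have := hB.mono 0 1 (by omega) (by omega)
          simp only [shiftH, zero_add]
          omega
        have h1 := ih2 n' rfl _ hS hpos d 1 g hg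
        refine (h1.cast (by omega)).imp fun p hp => ⟨hp.1, fun N => ?_⟩
        have e := hp.2 N
        beta_reduce at e ⊢
        rw [L1_two _ _ h _ _ h0, ← e, pow_one]
    refine ⟨?_, hP1, ?_⟩
    · intro h hB
      have hg : Fb 0 ∈ coneC 0 := Gr_F.C_F 0
      have h1 := hP1 m rfl h hB 0 (Fb 0) hg
      refine (h1.cast (by omega)).imp fun p hp => ⟨hp.1, fun N => ?_⟩
      have e := hp.2 N
      beta_reduce at e ⊢
      rw [L0_succ _ _ h m (Fb 0 N) (fun c => FN_zero _ _ c), e]
    · intro n hn h hB hpos d r g hg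
      have hb0 := hB.bd 0 (by omega)
      have hS := hB.shift
      have hm : m = n + 1 := by omega
      subst hm
      have hcases : h 0 = 1 ∨ h 0 = 2 := by omega
      rcases hcases with h0 | h0
      · have h1 := ih1 n rfl _ hS (d + r + 1) (TrF r g) (TrF_mem hg r)
        refine (h1.cast (by omega)).imp fun p hp => ⟨hp.1, fun N => ?_⟩
        have e := hp.2 N
        beta_reduce at e ⊢
        rw [L2_one _ _ h _ _ h0, ← e]
        rfl
      · obtain ⟨n', rfl⟩ : ∃ n', n = n' + 1 := ⟨n - 1, by omega⟩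
        have hpos' : 1 ≤ shiftH h 0 := by
          have := hB.mono 0 1 (by omega) (by omega)
          simp only [shiftH, zero_add]
          omega
        have h1 := ih2 n' rfl _ hS hpos' d (r + 1) g hg
        refine (h1.cast (by omega)).imp fun p hp => ⟨hp.1, fun N => ?_⟩
        have e := hp.2 N
        beta_reduce at e ⊢
        rw [L2_two _ _ h _ _ h0, ← e, pow_succ']
        rfl

lemma prod_edge {R : Type*} [CommRing R] (q : R) (h : ℕ → ℕ) {n N : ℕ} (f : Fin n → Fin N)
    (hp : IsProperCol h f) :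
    (∏ i : Fin n, ∏ j : Fin n, if i < j ∧ (j : ℕ) ≤ h i then ef q (f i) (f j) else 1)
      = q ^ ascCount h f := by
  have h1 : ∀ i j : Fin n, (if i < j ∧ (j : ℕ) ≤ h i then ef q (f i) (f j) else 1)
      = if i < j ∧ (j : ℕ) ≤ h i ∧ f i < f j then q else 1 := by
    intro i j
    by_cases h2 : i < j ∧ (j : ℕ) ≤ h i
    · have h3 := hp i j h2.1 h2.2
      simp only [h2.1, h2.2, true_and, if_true, ef, h3, if_false]
    · rw [if_neg h2, if_neg]
      exact fun h3 => h2 ⟨h3.1, h3.2.1⟩
  simp only [h1]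
  rw [← Fintype.prod_prod_type' (fun i j : Fin n => if i < j ∧ (j : ℕ) ≤ h i ∧ f i < f j then q else 1),
    prod_ite]
  simp [ascCount]

lemma prod_edge_not {R : Type*} [CommRing R] (q : R) (h : ℕ → ℕ) {n N : ℕ} (f : Fin n → Fin N)
    (hp : ¬ IsProperCol h f) :
    (∏ i : Fin n, ∏ j : Fin n, if i < j ∧ (j : ℕ) ≤ h i then ef q (f i) (f j) else 1) = 0 := by
  unfold IsProperCol at hp
  push Not at hp
  obtain ⟨i, j, hij, hj, hfe⟩ := hp
  refine prod_eq_zero (mem_univ i) (prod_eq_zero (mem_univ j) ?_)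
  simp [hij, hj, ef, hfe]

lemma chromQ_eq (h : ℕ → ℕ) (n N : ℕ) :
    chromQ h n N = L0 (qN N) (tN N) h n := by
  unfold chromQ L0 wtf
  refine sum_congr rfl fun f _ => ?_
  by_cases hp : IsProperCol h f
  · rw [if_pos hp, prod_edge _ h f hp, map_pow]
    rfl
  · rw [if_neg hp, prod_edge_not _ h f hp, zero_mul]

lemma parts_sum (m : ℕ →₀ ℕ) :
    ((Finsupp.toMultiset m).map (· + 1)).sum = Finsupp.weight (fun k : ℕ => k + 1) m := by
  induction m using Finsupp.induction_linear with
  | zero => simp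
  | add f g hf hg =>
    rw [map_add, map_add, Multiset.map_add, Multiset.sum_add, hf, hg]
  | single a b =>
    rw [Finsupp.toMultiset_single, Multiset.map_nsmul, Multiset.sum_nsmul, Multiset.map_singleton,
      Multiset.sum_singleton, Finsupp.weight_single]

lemma parts_prod {A : Type*} [CommMonoid A] (G : ℕ → A) (m : ℕ →₀ ℕ) :
    ((Finsupp.toMultiset m).map G).prod = ∏ i ∈ m.support, G i ^ m i := by
  change _ = m.prod (fun i r => G i ^ r)
  induction m using Finsupp.induction_linear with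
  | zero => simp
  | add f g hf hg =>
    rw [map_add, Multiset.map_add, Multiset.prod_add, hf, hg,
      Finsupp.prod_add_index' (fun _ => pow_zero _) (fun _ _ _ => pow_add _ _ _)]
  | single a b =>
    rw [Finsupp.toMultiset_single, Multiset.map_nsmul, Multiset.prod_nsmul, Multiset.map_singleton,
      Multiset.prod_singleton]
    rw [Finsupp.prod_single_index (h := fun i r => G i ^ r) (pow_zero (G a))]

open Classical in
/-- The partition associated with an exponent vector. -/
noncomputable def lam (n : ℕ) (m : ℕ →₀ ℕ) : Nat.Partition n :=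
  if h : ((Finsupp.toMultiset m).map (· + 1)).sum = n then
    ⟨(Finsupp.toMultiset m).map (· + 1), by
      intro i hi
      obtain ⟨k, _, rfl⟩ := Multiset.mem_map.mp hi
      omega, h⟩
  else Nat.Partition.indiscrete n

open Classical in
theorem main_partition (n : ℕ) (F : FF) (hF : WH n F) :
    ∃ c : Nat.Partition n → Polynomial ℕ, ∀ N, ev N F = ∑ l : Nat.Partition n,
      MvPolynomial.C ((c l).map (Nat.castRingHom ℤ))
        * (l.parts.map (MvPolynomial.esymm (Fin N) (Polynomial ℤ))).prod := by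
  refine ⟨fun l => ∑ m ∈ F.support.filter (fun m => lam n m = l), F.coeff m, fun N => ?_⟩
  have h0 : ∀ l : Nat.Partition n,
      MvPolynomial.C ((∑ m ∈ F.support.filter (fun m => lam n m = l), F.coeff m).map
          (Nat.castRingHom ℤ))
        * (l.parts.map (MvPolynomial.esymm (Fin N) (Polynomial ℤ))).prod
      = ∑ m ∈ F.support.filter (fun m => lam n m = l), coefHom N (F.coeff m)
          * ∏ i ∈ m.support, (MvPolynomial.esymm (Fin N) (Polynomial ℤ) (i + 1)) ^ m i := by
    intro l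
    have h1 : MvPolynomial.C ((∑ m ∈ F.support.filter (fun m => lam n m = l), F.coeff m).map
          (Nat.castRingHom ℤ))
        = ∑ m ∈ F.support.filter (fun m => lam n m = l), coefHom N (F.coeff m) := by
      rw [Polynomial.map_sum, map_sum]
      rfl
    rw [h1, sum_mul]
    refine sum_congr rfl fun m hm => ?_
    obtain ⟨hm1, hm2⟩ := mem_filter.mp hm
    congr 1
    have hw : ((Finsupp.toMultiset m).map (· + 1)).sum = n := by
      rw [parts_sum]
      exact hF (MvPolynomial.mem_support_iff.mp hm1)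
    have hl : l.parts = (Finsupp.toMultiset m).map (· + 1) := by
      rw [← hm2]
      unfold lam
      rw [dif_pos hw]
    rw [hl, Multiset.map_map]
    exact parts_prod (fun i => MvPolynomial.esymm (Fin N) (Polynomial ℤ) (i + 1)) m
  simp only [h0]
  rw [sum_fiberwise]
  change MvPolynomial.eval₂ (coefHom N) _ F = _
  rw [MvPolynomial.eval₂_eq]

/-- The main theorem. -/
theorem band_two (h : ℕ → ℕ) (n : ℕ) (hb : ∀ i, i < n → i ≤ h i ∧ h i ≤ i + 2 ∧ h i < n)
    (hm : ∀ i j, i ≤ j → j < n → h i ≤ h j) :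
    ∃ c : Nat.Partition n → Polynomial ℕ, ∀ N : ℕ,
      chromQ h n N = ∑ l : Nat.Partition n,
        MvPolynomial.C ((c l).map (Nat.castRingHom ℤ))
          * (l.parts.map (MvPolynomial.esymm (Fin N) (Polynomial ℤ))).prod := by
  obtain ⟨p, hp, hpe⟩ := (main_stmt n).1 h ⟨hb, hm⟩
  obtain ⟨c, hc⟩ := main_partition n p hp
  exact ⟨c, fun N => by
    rw [chromQ_eq]
    exact (hpe N).trans (hc N)⟩

end Vale.Agent.Lib.P066B
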