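import Mathlib

/-!
Transfer operators on functions of one or two colours and the explicit two-parameter family of
functions of two colours on which they act in closed form.
-/

set_option linter.unusedSectionVars false
set_option linter.unusedVariables false

namespace Vale.Agent.Lib.P066B

open Finset

section ops

variable {R : Type*} [CommRing R] {N : ℕ}

/-- The weight of an edge from colour `a` to colour `b`. -/
def ef (q : R) (a b : Fin N) : R := if a = b then 0 else if a < b then q else 1

/-- `∏_j (1 + ef j c x_j z)`. -/
def PP (q : R) (x : Fin N → R) (z : R) (c : Fin N) : R := ∏ j, (1 + ef q j c * x j * z)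

/-- `∏_j (1 + w_j x_j z)` with `w_j = q` for `j < u` and `1` otherwise. -/
def Lam (q : R) (x : Fin N → R) (z : R) (u : ℕ) : R :=
  ∏ j : Fin N, (1 + (if j.val < u then q else 1) * x j * z)

/-- `∑_{c < u} x_c PP c`. -/
def SS (q : R) (x : Fin N → R) (z : R) (u : ℕ) : R :=
  ∑ c : Fin N, if c.val < u then x c * PP q x z c else 0

variable (q : R) (x : Fin N → R) (z t : R)

lemma PP_erase (c : Fin N) :
    PP q x z c = ∏ j ∈ univ.erase c, (1 + (if j.val < c.val then q else 1) * x j * z) := by
  unfold PP
  rw [← mul_prod_erase univ _ (mem_univ c)]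
  have h : ef q c c = 0 := by simp [ef]
  rw [h, zero_mul, zero_mul, add_zero, one_mul]
  refine prod_congr rfl fun j hj => ?_
  have hj' : j ≠ c := (mem_erase.mp hj).1
  simp only [ef, hj', if_false, Fin.lt_def]

lemma Lam_self (c : Fin N) : Lam q x z c.val = (1 + x c * z) * PP q x z c := by
  unfold Lam
  rw [← mul_prod_erase univ _ (mem_univ c), PP_erase]
  simp

lemma Lam_succ (c : Fin N) : Lam q x z (c.val + 1) = (1 + q * x c * z) * PP q x z c := by
  unfold Lam
  rw [← mul_prod_erase univ _ (mem_univ c), PP_erase]
  have h : c.val < c.val + 1 := by omega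
  rw [if_pos h]
  congr 1
  refine prod_congr rfl fun j hj => ?_
  have hj' : j.val ≠ c.val := fun h => (mem_erase.mp hj).1 (Fin.ext h)
  have h3 : j.val < c.val + 1 ↔ j.val < c.val := by omega
  simp only [h3]

lemma SS_succ (u : ℕ) :
    SS q x z (u + 1) = SS q x z u + ∑ c : Fin N, if c.val = u then x c * PP q x z c else 0 := by
  unfold SS
  rw [← sum_add_distrib]
  refine sum_congr rfl fun c _ => ?_
  by_cases h1 : c.val < u
  · have h2 : c.val < u + 1 := by omega
    have h3 : c.val ≠ u := by omega
    simp [h1, h2, h3]
  · by_cases h3 : c.val = u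
    · have h2 : c.val < u + 1 := by omega
      simp [h1, h2, h3]
    · have h2 : ¬ c.val < u + 1 := by omega
      simp [h1, h2, h3]

lemma SS_succ_val (c : Fin N) :
    SS q x z (c.val + 1) = SS q x z c.val + x c * PP q x z c := by
  rw [SS_succ]
  congr 1
  rw [sum_eq_single c]
  · simp
  · intro b _ hb
    have : b.val ≠ c.val := fun h => hb (Fin.ext h)
    simp [this]
  · simp

lemma tele (u : ℕ) : (q - 1) * z * SS q x z u = Lam q x z u - Lam q x z 0 := by
  induction u with
  | zero => simp [SS]
  | succ u ih =>
    by_cases hu : u < N
    · have h1 := SS_succ_val q x z (⟨u, hu⟩ : Fin N)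
      have h2 := Lam_self q x z (⟨u, hu⟩ : Fin N)
      have h3 := Lam_succ q x z (⟨u, hu⟩ : Fin N)
      simp only at h1 h2 h3
      rw [h1, h3]
      rw [h2] at ih
      linear_combination ih
    · have h1 : SS q x z (u + 1) = SS q x z u := by
        rw [SS_succ]
        have : (∑ c : Fin N, if c.val = u then x c * PP q x z c else 0) = 0 := by
          refine sum_eq_zero fun c _ => ?_
          have : c.val ≠ u := by
            have := c.isLt
            omega
          simp [this]
        rw [this, add_zero]
      have h2 : Lam q x z (u + 1) = Lam q x z u := by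
        unfold Lam
        refine prod_congr rfl fun j _ => ?_
        have h3 : j.val < u + 1 := by
          have := j.isLt
          omega
        have h4 : j.val < u := by
          have := j.isLt
          omega
        simp [h3, h4]
      rw [h1, h2, ih]

/-- The relation in the form used below. -/
lemma tele_val (c : Fin N) :
    (q - 1) * z * SS q x z c.val = (1 + x c * z) * PP q x z c - Lam q x z 0 := by
  rw [tele, Lam_self]

lemma tele_succ (c : Fin N) :
    (q - 1) * z * SS q x z (c.val + 1) = (1 + q * x c * z) * PP q x z c - Lam q x z 0 := by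
  rw [tele, Lam_succ]

/-- The map from functions of one colour to functions of two colours. -/
def opA : (Fin N → R) →ₗ[R] (Fin N → Fin N → R) where
  toFun g := fun a _ => g a
  map_add' _ _ := rfl
  map_smul' _ _ := rfl

/-- Forget the first colour. -/
def opR : (Fin N → Fin N → R) →ₗ[R] (Fin N → R) where
  toFun g := fun b => ∑ a, x a * ef q a b * g a b
  map_add' g g' := by
    funext b
    simp only [Pi.add_apply, mul_add, sum_add_distrib]
  map_smul' c g := by
    funext b
    simp only [Pi.smul_apply, smul_eq_mul, RingHom.id_apply, mul_sum]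
    refine sum_congr rfl fun a _ => ?_
    ring

/-- Forget the first colour and add a new colour adjacent to the two remaining vertices. -/
def opU : (Fin N → Fin N → R) →ₗ[R] (Fin N → Fin N → R) where
  toFun g := fun a b => ∑ c, x c * ef q c a * ef q c b * g c a
  map_add' g g' := by
    funext a b
    simp only [Pi.add_apply, mul_add, sum_add_distrib]
  map_smul' c g := by
    funext a b
    simp only [Pi.smul_apply, smul_eq_mul, RingHom.id_apply, mul_sum]
    refine sum_congr rfl fun d _ => ?_
    ring

@[simp] lemma opA_apply (g : Fin N → R) (a b : Fin N) : opA g a b = g a := rfl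

lemma opR_apply (g : Fin N → Fin N → R) (b : Fin N) :
    opR q x g b = ∑ a, x a * ef q a b * g a b := rfl

lemma opU_apply (g : Fin N → Fin N → R) (a b : Fin N) :
    opU q x g a b = ∑ c, x c * ef q c a * ef q c b * g c a := rfl

/-- The explicit function of two colours. -/
def YY (a b : Fin N) : R :=
  if a < b then
    (1 - t) * PP q x z a * PP q x (q * z * t * t) b
      + t * (1 - q * t) * PP q x (q * z * t * t) a * PP q x z b
  else
    (1 - q * t) * PP q x z a * PP q x (q * z * t * t) b
      + q * t * (1 - t) * PP q x (q * z * t * t) a * PP q x z b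

lemma opR_YY_decomp (b : Fin N) :
    opR q x (YY q x z t) b
      = q * (1 - t) * PP q x (q * z * t * t) b * SS q x z b.val
        + q * t * (1 - q * t) * PP q x z b * SS q x (q * z * t * t) b.val
        + (1 - q * t) * PP q x (q * z * t * t) b * (SS q x z N - SS q x z (b.val + 1))
        + q * t * (1 - t) * PP q x z b
          * (SS q x (q * z * t * t) N - SS q x (q * z * t * t) (b.val + 1)) := by
  rw [opR_apply]
  simp only [SS, mul_sum, ← sum_sub_distrib, ← sum_add_distrib]
  refine sum_congr rfl fun a _ => ?_
  have haN := a.isLt
  rcases lt_trichotomy a b with h | h | h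
  · have h1 : a.val < b.val := h
    have h2 : a.val < b.val + 1 := by omega
    have h3 : a ≠ b := h.ne
    simp only [ef, YY, h, h1, h2, h3, haN, if_true, if_false]
    ring
  · subst h
    have h2 : a.val < a.val + 1 := by omega
    simp only [ef, h2, haN, if_true, lt_irrefl, if_false]
    ring
  · have h1 : ¬ a.val < b.val := by
      have : b.val < a.val := h
      omega
    have h2 : ¬ a.val < b.val + 1 := by
      have : b.val < a.val := h
      omega
    have h3 : a ≠ b := h.ne'
    have h4 : ¬ a < b := not_lt.mpr h.le
    simp only [ef, YY, h4, h1, h2, h3, haN, if_true, if_false]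
    ring

/-- The image of the explicit function under `opR`. -/
lemma bethe_R (b : Fin N) :
    z * t * opR q x (YY q x z t) b
      = (t * Lam q x (q * z * t * t) 0
            + (1 - t) * ((q * z * t * t) * SS q x (q * z * t * t) N)) * PP q x z b
        + t * ((1 - q * t) * (z * SS q x z N) - Lam q x z 0) * PP q x (q * z * t * t) b := by
  rw [opR_YY_decomp, SS_succ_val, SS_succ_val]
  have hz := tele_val q x z b
  have hw := tele_val q x (q * z * t * t) b
  linear_combination (t * PP q x (q * z * t * t) b) * hz - (t * PP q x z b) * hw

lemma pi_YY_lt {a b : Fin N} (hab : a < b) :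
    opU q x (YY q x z t) a b - opR q x (YY q x z t) a
      = (q - 1) * q * ((1 - t) * PP q x (q * z * t * t) a * SS q x z a.val
            + t * (1 - q * t) * PP q x z a * SS q x (q * z * t * t) a.val)
        + (q - 1) * ((1 - q * t) * PP q x (q * z * t * t) a * (SS q x z b.val - SS q x z (a.val + 1))
            + q * t * (1 - t) * PP q x z a
              * (SS q x (q * z * t * t) b.val - SS q x (q * z * t * t) (a.val + 1)))
        - ((1 - q * t) * PP q x (q * z * t * t) a * (SS q x z (b.val + 1) - SS q x z b.val)
            + q * t * (1 - t) * PP q x z a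
              * (SS q x (q * z * t * t) (b.val + 1) - SS q x (q * z * t * t) b.val)) := by
  rw [opU_apply, opR_apply]
  simp only [SS, mul_sum, ← sum_sub_distrib, ← sum_add_distrib]
  refine sum_congr rfl fun c _ => ?_
  have hab' : a.val < b.val := hab
  rcases lt_trichotomy c a with h | h | h
  · have h1 : c.val < a.val := h
    have h2 : c < b := h.trans hab
    have h3 : c ≠ a := h.ne
    have h4 : c ≠ b := h2.ne
    have h5 : c.val < b.val := h2
    have h6 : c.val < a.val + 1 := by omega
    have h7 : c.val < b.val + 1 := by omega
    simp only [ef, YY, h, h1, h2, h3, h4, h5, h6, h7, if_true, if_false]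
    ring
  · subst h
    have h6 : c.val < c.val + 1 := by omega
    have h7 : c.val < b.val + 1 := by omega
    simp only [ef, h6, h7, hab', if_true, if_false, lt_irrefl]
    ring
  · have h1 : ¬ c.val < a.val := by
      have : a.val < c.val := h
      omega
    have h3 : c ≠ a := h.ne'
    have h4 : ¬ c < a := not_lt.mpr h.le
    have h6 : ¬ c.val < a.val + 1 := by
      have : a.val < c.val := h
      omega
    rcases lt_trichotomy c b with h' | h' | h'
    · have h5 : c.val < b.val := h'
      have h7 : c.val < b.val + 1 := by omega
      have h8 : c ≠ b := h'.ne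
      simp only [ef, YY, h', h1, h3, h4, h5, h6, h7, h8, if_true, if_false]
      ring
    · subst h'
      have h7 : c.val < c.val + 1 := by omega
      simp only [ef, YY, h1, h3, h4, h6, h7, if_true, if_false, lt_irrefl]
      ring
    · have h5 : ¬ c.val < b.val := by
        have : b.val < c.val := h'
        omega
      have h7 : ¬ c.val < b.val + 1 := by
        have : b.val < c.val := h'
        omega
      have h8 : c ≠ b := h'.ne'
      have h9 : ¬ c < b := not_lt.mpr h'.le
      simp only [ef, YY, h9, h1, h3, h4, h5, h6, h7, h8, if_true, if_false]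
      ring

lemma pi_YY_gt {a b : Fin N} (hab : b < a) :
    opU q x (YY q x z t) a b - opR q x (YY q x z t) a
      = (q - 1) * q * ((1 - t) * PP q x (q * z * t * t) a * SS q x z b.val
            + t * (1 - q * t) * PP q x z a * SS q x (q * z * t * t) b.val)
        - q * ((1 - t) * PP q x (q * z * t * t) a * (SS q x z (b.val + 1) - SS q x z b.val)
            + t * (1 - q * t) * PP q x z a
              * (SS q x (q * z * t * t) (b.val + 1) - SS q x (q * z * t * t) b.val)) := by
  rw [opU_apply, opR_apply]
  simp only [SS, mul_sum, ← sum_sub_distrib, ← sum_add_distrib]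
  refine sum_congr rfl fun c _ => ?_
  have hab' : b.val < a.val := hab
  rcases lt_trichotomy c b with h | h | h
  · have h1 : c.val < b.val := h
    have h2 : c < a := h.trans hab
    have h3 : c ≠ a := h2.ne
    have h4 : c ≠ b := h.ne
    have h7 : c.val < b.val + 1 := by omega
    simp only [ef, YY, h, h1, h2, h3, h4, h7, if_true, if_false]
    ring
  · subst h
    have h7 : c.val < c.val + 1 := by omega
    have h3 : c ≠ a := hab.ne
    simp only [ef, YY, hab, h3, h7, if_true, if_false, lt_irrefl]
    ring
  · have h1 : ¬ c.val < b.val := by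
      have : b.val < c.val := h
      omega
    have h7 : ¬ c.val < b.val + 1 := by
      have : b.val < c.val := h
      omega
    have h4 : c ≠ b := h.ne'
    have h9 : ¬ c < b := not_lt.mpr h.le
    simp only [ef, h9, h1, h4, h7, if_true, if_false]
    ring

/-- The action of `opU - opA opR` on the explicit function. -/
lemma bethe_pi {a b : Fin N} (hab : a ≠ b) :
    YY q x z t a b - z * t * (opU q x (YY q x z t) a b - opR q x (YY q x z t) a)
      = (1 - q * t) * Lam q x (q * z * t * t) 0 * PP q x z a
        + q * t * (1 - t) * Lam q x z 0 * PP q x (q * z * t * t) a := by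
  rcases lt_or_gt_of_ne hab with h | h
  · rw [pi_YY_lt q x z t h, SS_succ_val q x z b, SS_succ_val q x (q * z * t * t) b]
    have hza := tele_val q x z a
    have hwa := tele_val q x (q * z * t * t) a
    have hza1 := tele_succ q x z a
    have hwa1 := tele_succ q x (q * z * t * t) a
    have hzb := tele_val q x z b
    have hwb := tele_val q x (q * z * t * t) b
    simp only [YY, h, if_true]
    linear_combination (-t * q * (1 - t) * PP q x (q * z * t * t) a) * hza
      - (1 - q * t) * PP q x z a * hwa
      - t * (1 - q * t) * PP q x (q * z * t * t) a * (hzb - hza1)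
      - (1 - t) * PP q x z a * (hwb - hwa1)
  · rw [pi_YY_gt q x z t h, SS_succ_val q x z b, SS_succ_val q x (q * z * t * t) b]
    have hzb := tele_val q x z b
    have hwb := tele_val q x (q * z * t * t) b
    have h4 : ¬ a < b := not_lt.mpr h.le
    simp only [YY, h4, if_false]
    linear_combination (-t * q * (1 - t) * PP q x (q * z * t * t) a) * hzb
      - (1 - q * t) * PP q x z a * hwb

/-- The source function. -/
def WW (a : Fin N) : R :=
  ((1 - q * t) * (Lam q x (q * z * t * t) 0 - (q * z * t * t) * SS q x (q * z * t * t) N)
      - t * Lam q x (q * z * t * t) N) * PP q x z a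
    + t * ((1 - q * t) * (Lam q x z 0 - z * SS q x z N) + q * Lam q x z 0) * PP q x (q * z * t * t) a

/-- The target function. -/
def VV (a : Fin N) : R :=
  (1 - q * t) * Lam q x (q * z * t * t) 0 * PP q x z a
    + q * t * (1 - t) * Lam q x z 0 * PP q x (q * z * t * t) a

lemma VV_eq (a : Fin N) : VV q x z t a = WW q x z t a + z * t * opR q x (YY q x z t) a := by
  rw [bethe_R]
  have h := tele q x (q * z * t * t) N
  simp only [VV, WW]
  linear_combination (-(t * PP q x z a)) * h

/-- The equation `(1 - z t opU) YY = opA WW`, off the diagonal. -/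
lemma bethe_U {a b : Fin N} (hab : a ≠ b) :
    YY q x z t a b = opA (WW q x z t) a b + z * t * opU q x (YY q x z t) a b := by
  have h1 := bethe_pi q x z t hab
  have h2 := VV_eq q x z t a
  simp only [VV] at h2
  rw [opA_apply]
  linear_combination h1 + h2

end ops

section iter

variable {R : Type*} [CommRing R] {N : ℕ} (q : R) (x : Fin N → R)

lemma opU_congr {g g' : Fin N → Fin N → R} (h : ∀ a b, a ≠ b → g a b = g' a b) :
    opU q x g = opU q x g' := by
  funext a b
  rw [opU_apply, opU_apply]
  refine sum_congr rfl fun c _ => ?_
  by_cases hc : c = a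
  · subst hc
    simp [ef]
  · rw [h c a hc]

lemma opR_congr {g g' : Fin N → Fin N → R} (h : ∀ a b, a ≠ b → g a b = g' a b) :
    opR q x g = opR q x g' := by
  funext b
  rw [opR_apply, opR_apply]
  refine sum_congr rfl fun a _ => ?_
  by_cases hc : a = b
  · subst hc
    simp [ef]
  · rw [h a b hc]

/-- The transfer operator of a block: `opR (opU ^ r) opA`. -/
def Tr (r : ℕ) : (Fin N → R) →ₗ[R] (Fin N → R) :=
  (opR q x).comp (((opU q x) ^ r : Module.End R (Fin N → Fin N → R)).comp opA)

lemma Tr_apply (r : ℕ) (g : Fin N → R) :
    Tr q x r g = opR q x (((opU q x) ^ r : Module.End R (Fin N → Fin N → R)) (opA g)) := rfl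

/-- Iteration: if `Y = opA w + s opU Y` off the diagonal then the images under `opR` expand. -/
lemma iter_expand (s : R) (Y : Fin N → Fin N → R) (w : Fin N → R)
    (hY : ∀ a b, a ≠ b → Y a b = opA w a b + s * opU q x Y a b) (n : ℕ) :
    opR q x Y = ∑ r ∈ range n, s ^ r • Tr q x r w
      + s ^ n • opR q x (((opU q x) ^ n : Module.End R (Fin N → Fin N → R)) Y) := by
  have hthis : ∀ a b, a ≠ b → Y a b = (opA w + s • opU q x Y) a b := by
    intro a b hab
    simp only [Pi.add_apply, Pi.smul_apply, smul_eq_mul]
    exact hY a b hab
  have h1 : opU q x Y = opU q x (opA w) + s • opU q x (opU q x Y) := by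
    calc opU q x Y = opU q x (opA w + s • opU q x Y) := opU_congr q x hthis
      _ = _ := by rw [map_add, map_smul]
  have h2 : opR q x Y = opR q x (opA w) + s • opR q x (opU q x Y) := by
    calc opR q x Y = opR q x (opA w + s • opU q x Y) := opR_congr q x hthis
      _ = _ := by rw [map_add, map_smul]
  have hp : ∀ (m : ℕ) (g : Fin N → Fin N → R),
      ((opU q x) ^ (m + 1) : Module.End R (Fin N → Fin N → R)) g
        = ((opU q x) ^ m : Module.End R (Fin N → Fin N → R)) (opU q x g) := by
    intro m g
    rw [pow_succ]
    rfl
  have h4 : ∀ n : ℕ, opR q x (((opU q x) ^ n : Module.End R (Fin N → Fin N → R)) Y)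
      = Tr q x n w + s • opR q x (((opU q x) ^ (n + 1) : Module.End R (Fin N → Fin N → R)) Y) := by
    intro n
    cases n with
    | zero => simpa [Tr_apply] using h2
    | succ n =>
      rw [hp n Y, h1, map_add, map_smul, map_add, map_smul, Tr_apply, ← hp n (opA w),
        hp (n + 1) Y, hp n (opU q x Y)]
  induction n with
  | zero => simp
  | succ n ih =>
    rw [ih, sum_range_succ, add_assoc]
    congr 1
    rw [h4 n, smul_add, smul_smul, ← pow_succ s n]

end iter

end Vale.Agent.Lib.P066B
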