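import Mathlib

/-!
Double power series (variable `T` outer, `Z` inner) and a positivity argument: a family `Φ m r`
satisfying a certain functional equation lies in a graded cone.
-/

set_option linter.unusedSectionVars false
set_option linter.unusedVariables false

namespace Vale.Agent.Lib.P066B

open Finset PowerSeries

section ser

variable {V W : Type*} [CommRing V] [CommRing W]

/-- Double power series. -/
abbrev R2 (V : Type*) [CommRing V] := PowerSeries (PowerSeries V)

/-- Coefficient of `Z^a T^b`. -/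
noncomputable def cf (f : R2 V) (a b : ℕ) : V := coeff a (coeff b f)

/-- Double series from its coefficients. -/
noncomputable def mk2 (c : ℕ → ℕ → V) : R2 V := mk fun b => mk fun a => c a b

@[simp] lemma cf_mk2 (c : ℕ → ℕ → V) (a b : ℕ) : cf (mk2 c) a b = c a b := by
  simp [cf, mk2]

lemma ext2 {f g : R2 V} (h : ∀ a b, cf f a b = cf g a b) : f = g := by
  refine PowerSeries.ext fun b => PowerSeries.ext fun a => h a b

@[simp] lemma cf_add (f g : R2 V) (a b : ℕ) : cf (f + g) a b = cf f a b + cf g a b := by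
  simp [cf]

@[simp] lemma cf_sub (f g : R2 V) (a b : ℕ) : cf (f - g) a b = cf f a b - cf g a b := by
  simp [cf]

@[simp] lemma cf_zero (a b : ℕ) : cf (0 : R2 V) a b = 0 := by
  simp [cf]

lemma cf_mul (f g : R2 V) (a b : ℕ) :
    cf (f * g) a b = ∑ p ∈ antidiagonal b, ∑ r ∈ antidiagonal a, cf f r.1 p.1 * cf g r.2 p.2 := by
  simp only [cf, PowerSeries.coeff_mul, map_sum]

lemma cf_one (a b : ℕ) : cf (1 : R2 V) a b = if a = 0 ∧ b = 0 then 1 else 0 := by
  simp only [cf, PowerSeries.coeff_one]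
  by_cases hb : b = 0
  · subst hb
    by_cases ha : a = 0
    · simp [ha]
    · simp [ha, PowerSeries.coeff_one]
  · simp [hb]

/-- Scalars. -/
noncomputable def Cv (c : V) : R2 V := C (C c)

/-- The variable `T`. -/
noncomputable def Tv : R2 V := X

/-- The variable `Z`. -/
noncomputable def Zv : R2 V := C X

@[simp] lemma cf_Cv_mul (c : V) (f : R2 V) (a b : ℕ) : cf (Cv c * f) a b = c * cf f a b := by
  simp [cf, Cv, PowerSeries.coeff_C_mul]

lemma cf_Tv_mul (f : R2 V) (a b : ℕ) :
    cf (Tv * f) a b = if b = 0 then 0 else cf f a (b - 1) := by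
  unfold cf Tv
  cases b with
  | zero => simp
  | succ b => simp [PowerSeries.coeff_succ_X_mul]

lemma cf_Zv_mul (f : R2 V) (a b : ℕ) :
    cf (Zv * f) a b = if a = 0 then 0 else cf f (a - 1) b := by
  unfold cf Zv
  rw [PowerSeries.coeff_C_mul]
  cases a with
  | zero => simp
  | succ a => simp [PowerSeries.coeff_succ_X_mul]

lemma cf_Cv (c : V) (a b : ℕ) : cf (Cv c) a b = if a = 0 ∧ b = 0 then c else 0 := by
  have h : (Cv c : R2 V) = Cv c * 1 := by ring
  rw [h, cf_Cv_mul, cf_one]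
  split_ifs <;> simp

lemma cf_Tv (a b : ℕ) : cf (Tv : R2 V) a b = if a = 0 ∧ b = 1 then 1 else 0 := by
  have h : (Tv : R2 V) = Tv * 1 := by ring
  rw [h, cf_Tv_mul]
  by_cases hb : b = 0
  · simp [hb]
  · simp only [hb, if_false, cf_one]
    by_cases ha : a = 0
    · by_cases hb1 : b = 1
      · simp [ha, hb1]
      · have : b - 1 ≠ 0 := by omega
        simp [ha, hb1, this]
    · simp [ha]

/-- The map on double series induced by a ring homomorphism. -/
noncomputable def map2 (φ : V →+* W) : R2 V →+* R2 W := PowerSeries.map (PowerSeries.map φ)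

@[simp] lemma cf_map2 (φ : V →+* W) (f : R2 V) (a b : ℕ) : cf (map2 φ f) a b = φ (cf f a b) := by
  simp [cf, map2]

/-- `∑ f a Z^a`. -/
noncomputable def serZ (f : ℕ → V) : R2 V := mk2 fun a b => if b = 0 then f a else 0

/-- `∑ f a ζ^a` with `ζ = q Z T^2`. -/
noncomputable def serE (q : V) (f : ℕ → V) : R2 V := mk2 fun a b => if b = 2 * a then q ^ a * f a else 0

/-- `∑ f b T^b`. -/
noncomputable def serT (f : ℕ → V) : R2 V := mk2 fun a b => if a = 0 then f b else 0

/-- `∑ Φ m r Z^m (ZT)^r`. -/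
noncomputable def phiZ (Φ : ℕ → ℕ → V) : R2 V := mk2 fun a b => if b ≤ a then Φ (a - b) b else 0

/-- `∑ Φ m r ζ^m (ZT)^r`. -/
noncomputable def phiE (q : V) (Φ : ℕ → ℕ → V) : R2 V :=
  mk2 fun a b => if a ≤ b ∧ b ≤ 2 * a then q ^ (b - a) * Φ (b - a) (2 * a - b) else 0

@[simp] lemma map2_serZ (φ : V →+* W) (f : ℕ → V) : map2 φ (serZ f) = serZ fun n => φ (f n) := by
  refine ext2 fun a b => ?_
  simp only [cf_map2, serZ, cf_mk2]
  split_ifs <;> simp

@[simp] lemma map2_serE (φ : V →+* W) (q : V) (f : ℕ → V) :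
    map2 φ (serE q f) = serE (φ q) fun n => φ (f n) := by
  refine ext2 fun a b => ?_
  simp only [cf_map2, serE, cf_mk2]
  split_ifs <;> simp

@[simp] lemma map2_phiZ (φ : V →+* W) (Φ : ℕ → ℕ → V) :
    map2 φ (phiZ Φ) = phiZ fun m r => φ (Φ m r) := by
  refine ext2 fun a b => ?_
  simp only [cf_map2, phiZ, cf_mk2]
  split_ifs <;> simp

@[simp] lemma map2_phiE (φ : V →+* W) (q : V) (Φ : ℕ → ℕ → V) :
    map2 φ (phiE q Φ) = phiE (φ q) fun m r => φ (Φ m r) := by
  refine ext2 fun a b => ?_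
  simp only [cf_map2, phiE, cf_mk2]
  split_ifs <;> simp

@[simp] lemma map2_Cv (φ : V →+* W) (c : V) : map2 φ (Cv c) = Cv (φ c) := by
  refine ext2 fun a b => ?_
  simp only [cf_map2, cf_Cv]
  split_ifs <;> simp

@[simp] lemma map2_Tv (φ : V →+* W) : map2 φ (Tv : R2 V) = Tv := by
  refine ext2 fun a b => ?_
  simp only [cf_map2, cf_Tv]
  split_ifs <;> simp

/-- The `q`-integer `1 + q + ... + q^(n-1)`. -/
def qi {A : Type*} [CommSemiring A] (q : A) (n : ℕ) : A := ∑ k ∈ range n, q ^ k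

lemma map_qi_semi {A A' : Type*} [CommSemiring A] [CommSemiring A'] (φ : A →+* A') (q : A) (n : ℕ) :
    φ (qi q n) = qi (φ q) n := by
  simp [qi, map_sum, map_pow]

@[simp] lemma qi_zero (q : V) : qi q 0 = 0 := by simp [qi]

lemma qi_succ (q : V) (n : ℕ) : qi q (n + 1) = qi q n + q ^ n := by
  simp [qi, sum_range_succ]

lemma qi_succ' (q : V) (n : ℕ) : qi q (n + 1) = 1 + q * qi q n := by
  induction n with
  | zero => simp [qi]
  | succ n ih =>
    calc qi q (n + 1 + 1) = qi q (n + 1) + q ^ (n + 1) := qi_succ _ _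
      _ = 1 + q * qi q n + q ^ (n + 1) := by rw [ih]
      _ = 1 + q * qi q (n + 1) := by
        rw [qi_succ q n]
        ring

lemma qi_add (q : V) (x y : ℕ) : qi q (x + y) = qi q x + q ^ x * qi q y := by
  induction y with
  | zero => simp
  | succ y ih =>
    rw [← add_assoc, qi_succ, ih, qi_succ]
    ring

lemma map_qi (φ : V →+* W) (q : V) (n : ℕ) : φ (qi q n) = qi (φ q) n := by
  simp [qi, map_sum, map_pow]

/-- The left side of the functional equation. -/
noncomputable def starL (q : V) (e : ℕ → V) (Φ : ℕ → ℕ → V) : R2 V :=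
  ((1 - Cv q * Tv) * (serE q e - serE q (fun n => qi q n * e n))
      - Tv * serE q (fun n => q ^ n * e n)) * phiZ Φ
    + Tv * ((1 - Cv q * Tv) * (serZ e - serZ (fun n => qi q n * e n)) + Cv q * serZ e) * phiE q Φ

/-- The right side of the functional equation. -/
noncomputable def starR (q : V) (e F : ℕ → V) : R2 V :=
  (1 - Cv q * Tv) * serE q e * serZ F + Cv q * Tv * (1 - Tv) * serZ e * serE q F

lemma map2_starL (φ : V →+* W) (q : V) (e : ℕ → V) (Φ : ℕ → ℕ → V) :
    map2 φ (starL q e Φ) = starL (φ q) (fun n => φ (e n)) (fun m r => φ (Φ m r)) := by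
  simp only [starL, map_add, map_mul, map_sub, map_one, map2_serZ, map2_serE, map2_phiZ, map2_phiE,
    map2_Cv, map2_Tv, map_pow, map_qi]

lemma map2_starR (φ : V →+* W) (q : V) (e F : ℕ → V) :
    map2 φ (starR q e F) = starR (φ q) (fun n => φ (e n)) (fun n => φ (F n)) := by
  simp only [starR, map_add, map_mul, map_sub, map_one, map2_serZ, map2_serE, map2_Cv, map2_Tv]

/-- Graded positivity data. -/
structure Gr (S C : ℕ → Set V) (q : V) (e F : ℕ → V) : Prop where
  S_zero : ∀ d, (0 : V) ∈ S d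
  S_add : ∀ {d : ℕ} {a b : V}, a ∈ S d → b ∈ S d → a + b ∈ S d
  S_mul : ∀ {d d' : ℕ} {a b : V}, a ∈ S d → b ∈ S d' → a * b ∈ S (d + d')
  S_one : (1 : V) ∈ S 0
  S_q : q ∈ S 0
  S_e : ∀ n, e n ∈ S n
  C_zero : ∀ d, (0 : V) ∈ C d
  C_add : ∀ {d : ℕ} {a b : V}, a ∈ C d → b ∈ C d → a + b ∈ C d
  C_mul : ∀ {d d' : ℕ} {a b : V}, a ∈ S d → b ∈ C d' → a * b ∈ C (d + d')
  C_F : ∀ n, F n ∈ C n

variable {S C : ℕ → Set V} {q : V} {e F : ℕ → V}

lemma Gr.S_sum (G : Gr S C q e F) {ι : Type*} (s : Finset ι) (f : ι → V) (d : ℕ)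
    (h : ∀ i ∈ s, f i ∈ S d) : ∑ i ∈ s, f i ∈ S d := by
  classical
  induction s using Finset.induction_on with
  | empty => simpa using G.S_zero d
  | insert a s ha ih =>
    rw [sum_insert ha]
    exact G.S_add (h a (mem_insert_self _ _)) (ih fun i hi => h i (mem_insert_of_mem hi))

lemma Gr.C_sum (G : Gr S C q e F) {ι : Type*} (s : Finset ι) (f : ι → V) (d : ℕ)
    (h : ∀ i ∈ s, f i ∈ C d) : ∑ i ∈ s, f i ∈ C d := by
  classical
  induction s using Finset.induction_on with
  | empty => simpa using G.C_zero d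
  | insert a s ha ih =>
    rw [sum_insert ha]
    exact G.C_add (h a (mem_insert_self _ _)) (ih fun i hi => h i (mem_insert_of_mem hi))

lemma Gr.S_mul0 (G : Gr S C q e F) {d : ℕ} {a b : V} (ha : a ∈ S 0) (hb : b ∈ S d) : a * b ∈ S d := by
  simpa using G.S_mul ha hb

lemma Gr.C_mul0 (G : Gr S C q e F) {d : ℕ} {a b : V} (ha : a ∈ S 0) (hb : b ∈ C d) : a * b ∈ C d := by
  simpa using G.C_mul ha hb

lemma Gr.S_pow (G : Gr S C q e F) (n : ℕ) : q ^ n ∈ S 0 := by
  induction n with
  | zero => simpa using G.S_one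
  | succ n ih =>
    rw [pow_succ]
    exact G.S_mul0 ih G.S_q

lemma Gr.S_qi (G : Gr S C q e F) (n : ℕ) : qi q n ∈ S 0 :=
  G.S_sum _ _ _ fun k _ => G.S_pow k

/-- All coefficients in `S`. -/
def SPos (S : ℕ → Set V) (f : R2 V) : Prop := ∀ a b, cf f a b ∈ S a

/-- All coefficients in `C`. -/
def CPos (C : ℕ → Set V) (f : R2 V) : Prop := ∀ a b, cf f a b ∈ C a

/-- Coefficients vanish unless the `Z`-degree is at most the `T`-degree. -/
def Sup (f : R2 V) : Prop := ∀ a b, b < a → cf f a b = 0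

lemma SPos.mul (G : Gr S C q e F) {f g : R2 V} (hf : SPos S f) (hg : SPos S g) : SPos S (f * g) := by
  intro a b
  rw [cf_mul]
  refine G.S_sum _ _ _ fun p _ => G.S_sum _ _ _ fun r hr => ?_
  have h := G.S_mul (hf r.1 p.1) (hg r.2 p.2)
  rwa [mem_antidiagonal.mp hr] at h

lemma SPos.add (G : Gr S C q e F) {f g : R2 V} (hf : SPos S f) (hg : SPos S g) : SPos S (f + g) := by
  intro a b
  rw [cf_add]
  exact G.S_add (hf a b) (hg a b)

lemma CPos.mul (G : Gr S C q e F) {f g : R2 V} (hf : SPos S f) (hg : CPos C g) : CPos C (f * g) := by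
  intro a b
  rw [cf_mul]
  refine G.C_sum _ _ _ fun p _ => G.C_sum _ _ _ fun r hr => ?_
  have h := G.C_mul (hf r.1 p.1) (hg r.2 p.2)
  rwa [mem_antidiagonal.mp hr] at h

lemma CPos.add (G : Gr S C q e F) {f g : R2 V} (hf : CPos C f) (hg : CPos C g) : CPos C (f + g) := by
  intro a b
  rw [cf_add]
  exact G.C_add (hf a b) (hg a b)

lemma Sup.mul {f g : R2 V} (hf : Sup f) (hg : Sup g) : Sup (f * g) := by
  intro a b hab
  rw [cf_mul]
  refine sum_eq_zero fun p hp => sum_eq_zero fun r hr => ?_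
  have h1 := mem_antidiagonal.mp hp
  have h2 := mem_antidiagonal.mp hr
  by_cases h3 : p.1 < r.1
  · rw [hf _ _ h3, zero_mul]
  · rw [hg r.2 p.2 (by omega), mul_zero]

lemma Sup.add {f g : R2 V} (hf : Sup f) (hg : Sup g) : Sup (f + g) := by
  intro a b hab
  rw [cf_add, hf a b hab, hg a b hab, add_zero]

lemma Sup.sub {f g : R2 V} (hf : Sup f) (hg : Sup g) : Sup (f - g) := by
  intro a b hab
  rw [cf_sub, hf a b hab, hg a b hab, sub_zero]

lemma Sup_one : Sup (1 : R2 V) := by
  intro a b hab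
  rw [cf_one, if_neg (by omega)]

lemma Sup_Tv : Sup (Tv : R2 V) := by
  intro a b hab
  rw [cf_Tv, if_neg (by omega)]

lemma Sup_serE (q : V) (f : ℕ → V) : Sup (serE q f) := by
  intro a b hab
  simp only [serE, cf_mk2]
  rw [if_neg (by omega)]

lemma Sup_serT (f : ℕ → V) : Sup (serT f) := by
  intro a b hab
  simp only [serT, cf_mk2]
  rw [if_neg (by omega)]

lemma Sup_phiE (q : V) (Φ : ℕ → ℕ → V) : Sup (phiE q Φ) := by
  intro a b hab
  simp only [phiE, cf_mk2]
  rw [if_neg (by omega)]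

lemma SPos_one (G : Gr S C q e F) : SPos S (1 : R2 V) := by
  intro a b
  rw [cf_one]
  split_ifs with h
  · rw [h.1]
    exact G.S_one
  · exact G.S_zero a

lemma SPos_Tv (G : Gr S C q e F) : SPos S (Tv : R2 V) := by
  intro a b
  rw [cf_Tv]
  split_ifs with h
  · rw [h.1]
    exact G.S_one
  · exact G.S_zero a

lemma SPos_Cv (G : Gr S C q e F) {c : V} (hc : c ∈ S 0) : SPos S (Cv c : R2 V) := by
  intro a b
  rw [cf_Cv]
  split_ifs with h
  · rw [h.1]
    exact hc
  · exact G.S_zero a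

lemma SPos_serZ (G : Gr S C q e F) {f : ℕ → V} (hf : ∀ n, f n ∈ S n) : SPos S (serZ f) := by
  intro a b
  simp only [serZ, cf_mk2]
  split_ifs
  · exact hf a
  · exact G.S_zero a

lemma SPos_serE (G : Gr S C q e F) {f : ℕ → V} (hf : ∀ n, f n ∈ S n) : SPos S (serE q f) := by
  intro a b
  simp only [serE, cf_mk2]
  split_ifs
  · exact G.S_mul0 (G.S_pow a) (hf a)
  · exact G.S_zero a

lemma SPos_serT (G : Gr S C q e F) {f : ℕ → V} (hf : ∀ n, f n ∈ S 0) : SPos S (serT f) := by
  intro a b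
  simp only [serT, cf_mk2]
  split_ifs with h
  · rw [h]
    exact hf b
  · exact G.S_zero a

lemma CPos_serZ (G : Gr S C q e F) : CPos C (serZ F) := by
  intro a b
  simp only [serZ, cf_mk2]
  split_ifs
  · exact G.C_F a
  · exact G.C_zero a

lemma CPos_serE (G : Gr S C q e F) : CPos C (serE q F) := by
  intro a b
  simp only [serE, cf_mk2]
  split_ifs
  · exact G.C_mul0 (G.S_pow a) (G.C_F a)
  · exact G.C_zero a

lemma cf_serT_mul_serZ (f g : ℕ → V) (a b : ℕ) : cf (serT f * serZ g) a b = f b * g a := by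
  have h1 : (serZ g : R2 V) = C (mk g) := by
    refine ext2 fun a b => ?_
    rw [serZ, cf_mk2]
    simp only [cf, PowerSeries.coeff_C]
    split_ifs <;> simp
  have h2 : coeff b (serT f) = C (f b) := by
    refine PowerSeries.ext fun a => ?_
    simp only [serT, mk2, PowerSeries.coeff_mk, PowerSeries.coeff_C]
  simp only [cf]
  rw [h1, PowerSeries.coeff_mul_C, h2, PowerSeries.coeff_C_mul, PowerSeries.coeff_mk]

lemma cf_one_sub_Tv_mul_serT (f : ℕ → V) (a b : ℕ) :
    cf ((1 - Tv) * serT f) a b = if a = 0 then (if b = 0 then f 0 else f b - f (b - 1)) else 0 := by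
  have h : (1 - Tv) * serT f = serT f - Tv * serT f := by ring
  rw [h, cf_sub, cf_Tv_mul]
  simp only [serT, cf_mk2]
  by_cases ha : a = 0
  · by_cases hb : b = 0
    · simp [ha, hb]
    · simp [ha, hb]
  · simp [ha]

lemma cf_one_sub_qT_mul_serT (c : V) (f : ℕ → V) (a b : ℕ) :
    cf ((1 - Cv c * Tv) * serT f) a b
      = if a = 0 then (if b = 0 then f 0 else f b - c * f (b - 1)) else 0 := by
  have h : (1 - Cv c * Tv) * serT f = serT f - Cv c * (Tv * serT f) := by ring
  rw [h, cf_sub, cf_Cv_mul, cf_Tv_mul]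
  simp only [serT, cf_mk2]
  by_cases ha : a = 0
  · by_cases hb : b = 0
    · simp [ha, hb]
    · simp [ha, hb]
  · simp [ha]

/-- `(1 - cT)^{-1}`. -/
noncomputable def uu (c : V) : R2 V := serT fun b => c ^ b

lemma one_sub_mul_uu (c : V) : (1 - Cv c * Tv) * uu c = 1 := by
  refine ext2 fun a b => ?_
  rw [uu, cf_one_sub_qT_mul_serT, cf_one]
  by_cases ha : a = 0
  · by_cases hb : b = 0
    · simp [ha, hb]
    · obtain ⟨k, rfl⟩ : ∃ k, b = k + 1 := ⟨b - 1, by omega⟩
      simp [ha, pow_succ, mul_comm]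
  · simp [ha]

/-- `T/(1-T)`. -/
noncomputable def aT : ℕ → V := fun b => if b = 0 then 0 else 1

/-- `∑_{b ≥ 1} [b+1] T^b`. -/
noncomputable def bT (q : V) : ℕ → V := fun b => if b = 0 then 0 else qi q (b + 1)

lemma one_sub_mul_aT : (1 - Tv) * serT (aT : ℕ → V) = Tv := by
  refine ext2 fun a b => ?_
  rw [cf_one_sub_Tv_mul_serT, cf_Tv]
  by_cases ha : a = 0
  · by_cases hb : b = 0
    · simp [ha, hb, aT]
    · by_cases hb1 : b = 1
      · simp [ha, hb1, aT]
      · have : b - 1 ≠ 0 := by omega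
        simp [ha, hb, hb1, aT, this]
  · simp [ha]

lemma one_sub_mul_bT (q : V) :
    (1 - Tv) * ((1 - Cv q * Tv) * serT (bT q)) = Tv * (1 + Cv q - Cv q * Tv) := by
  refine ext2 fun a b => ?_
  have hL : (1 - Tv) * ((1 - Cv q * Tv) * serT (bT q)) = (1 - Cv q * Tv) * ((1 - Tv) * serT (bT q)) := by
    ring
  have h2 : (1 - Tv) * serT (bT q) = serT (fun b => if b = 0 then 0 else if b = 1 then 1 + q else q ^ b) := by
    refine ext2 fun a b => ?_
    rw [cf_one_sub_Tv_mul_serT]
    simp only [serT, cf_mk2, bT]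
    by_cases ha : a = 0
    · by_cases hb : b = 0
      · simp [ha, hb]
      · by_cases hb1 : b = 1
        · subst hb1
          simp [ha, qi_succ]
        · obtain ⟨k, rfl⟩ : ∃ k, b = k + 1 := ⟨b - 1, by omega⟩
          have hk : k ≠ 0 := by omega
          simp only [ha, if_true, hb, if_false, hb1, Nat.add_sub_cancel, hk]
          rw [qi_succ q (k + 1)]
          ring
    · simp [ha]
  rw [hL, h2, cf_one_sub_qT_mul_serT]
  have hR : Tv * (1 + Cv q - Cv q * Tv) = Tv * (1 + Cv q) - Cv q * (Tv * Tv) := by ring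
  rw [hR, cf_sub, cf_Tv_mul, cf_Cv_mul, cf_Tv_mul, cf_add, cf_Cv, cf_one, cf_Tv]
  by_cases ha : a = 0
  · by_cases hb : b = 0
    · simp [ha, hb]
    · by_cases hb1 : b = 1
      · simp [ha, hb1]
      · by_cases hb2 : b = 2
        · subst hb2
          simp [ha, pow_two]
          ring
        · obtain ⟨k, rfl⟩ : ∃ k, b = k + 3 := ⟨b - 3, by omega⟩
          simp [ha, pow_succ]
          ring
  · simp [ha]

end ser

section main

variable {V : Type*} [CommRing V] {S C : ℕ → Set V} {q : V} {e F : ℕ → V}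

/-- The part of the denominator coming from `Q`. -/
noncomputable def gG (q : V) (e : ℕ → V) : R2 V :=
  1 - (serE q e - serE q (fun n => qi q n * e n))

lemma SPos_gG (G : Gr S C q e F) (he : e 0 = 1) : SPos S (gG q e) := by
  intro a b
  simp only [gG, cf_sub, cf_one, serE, cf_mk2]
  by_cases hb : b = 2 * a
  · rw [if_pos hb, if_pos hb]
    cases a with
    | zero =>
      have hb0 : b = 0 := by omega
      subst hb0
      simp [he]
      exact G.S_zero 0
    | succ k =>
      have h1 : ¬ (k + 1 = 0 ∧ b = 0) := by omega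
      rw [if_neg h1, qi_succ']
      have h2 : (0 : V) - (q ^ (k + 1) * e (k + 1) - q ^ (k + 1) * ((1 + q * qi q k) * e (k + 1)))
          = (q ^ (k + 1) * (q * qi q k)) * e (k + 1) := by ring
      rw [h2]
      exact G.S_mul0 (G.S_mul0 (G.S_pow _) (G.S_mul0 G.S_q (G.S_qi k))) (G.S_e _)
  · rw [if_neg hb, if_neg hb]
    have h1 : ¬ (a = 0 ∧ b = 0) := by omega
    rw [if_neg h1]
    simpa using G.S_zero a

lemma Sup_gG (q : V) (e : ℕ → V) : Sup (gG q e) :=
  Sup_one.sub ((Sup_serE q e).sub (Sup_serE q _))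

lemma cf_gG_zero (he : e 0 = 1) (a : ℕ) : cf (gG q e) a 0 = 0 := by
  simp only [gG, cf_sub, cf_one, serE, cf_mk2]
  by_cases ha : a = 0
  · subst ha
    simp [he]
  · have h1 : ¬ (0 = 2 * a) := by omega
    simp [ha, h1]

/-- The full denominator series. -/
noncomputable def gam (q : V) (e : ℕ → V) : R2 V :=
  gG q e + Tv * (serE q (fun n => q ^ n * e n) * uu q)

/-- The denominator series without its leading term `T`. -/
noncomputable def gam2 (q : V) (e : ℕ → V) : R2 V :=
  gG q e + Tv * (serE q (fun n => q ^ n * e n) * uu q - 1)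

lemma gam_eq (q : V) (e : ℕ → V) : gam q e = Tv + gam2 q e := by
  simp only [gam, gam2]
  ring

lemma SPos_sub_one (G : Gr S C q e F) {f : R2 V} (hf : SPos S f) (h0 : cf f 0 0 = 1) :
    SPos S (f - 1) := by
  intro a b
  rw [cf_sub, cf_one]
  by_cases h : a = 0 ∧ b = 0
  · obtain ⟨rfl, rfl⟩ := h
    simp [h0]
    exact G.S_zero 0
  · rw [if_neg h, sub_zero]
    exact hf a b

lemma SPos_uu (G : Gr S C q e F) : SPos S (uu q) :=
  SPos_serT G fun n => G.S_pow n

lemma SPos_E2 (G : Gr S C q e F) : SPos S (serE q (fun n => q ^ n * e n)) :=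
  SPos_serE G fun n => G.S_mul0 (G.S_pow n) (G.S_e n)

lemma SPos_gam (G : Gr S C q e F) (he : e 0 = 1) : SPos S (gam q e) :=
  SPos.add G (SPos_gG G he) (SPos.mul G (SPos_Tv G) (SPos.mul G (SPos_E2 G) (SPos_uu G)))

lemma cf_E2_uu (he : e 0 = 1) : cf (serE q (fun n => q ^ n * e n) * uu q) 0 0 = 1 := by
  rw [cf_mul]
  simp [serE, uu, serT, he]

lemma SPos_gam2 (G : Gr S C q e F) (he : e 0 = 1) : SPos S (gam2 q e) :=
  SPos.add G (SPos_gG G he) (SPos.mul G (SPos_Tv G)
    (SPos_sub_one G (SPos.mul G (SPos_E2 G) (SPos_uu G)) (cf_E2_uu he)))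

lemma Sup_gam (q : V) (e : ℕ → V) : Sup (gam q e) :=
  (Sup_gG q e).add (Sup_Tv.mul ((Sup_serE q _).mul (Sup_serT _)))

lemma Sup_gam2 (q : V) (e : ℕ → V) : Sup (gam2 q e) :=
  (Sup_gG q e).add (Sup_Tv.mul (((Sup_serE q _).mul (Sup_serT _)).sub Sup_one))

lemma cf_gam_zero (he : e 0 = 1) (a : ℕ) : cf (gam q e) a 0 = 0 := by
  rw [gam, cf_add, cf_gG_zero he, cf_Tv_mul]
  simp

/-- The inverse of the denominator series. -/
noncomputable def Ghat (q : V) (e : ℕ → V) : R2 V := PowerSeries.invOfUnit (1 - gam q e) 1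

lemma mul_Ghat (he : e 0 = 1) : (1 - gam q e) * Ghat q e = 1 := by
  refine PowerSeries.mul_invOfUnit _ _ ?_
  rw [← PowerSeries.coeff_zero_eq_constantCoeff_apply, Units.val_one]
  refine PowerSeries.ext fun a => ?_
  have h1 : PowerSeries.coeff a (PowerSeries.coeff 0 (1 - gam q e)) = cf (1 - gam q e) a 0 := rfl
  rw [h1, cf_sub, cf_gam_zero he, cf_one, sub_zero, PowerSeries.coeff_one]
  simp

lemma fix_SPos (G : Gr S C q e F) {γ g0 X : R2 V} (hγ : SPos S γ) (h0 : ∀ a, cf γ a 0 = 0)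
    (hg0 : SPos S g0) (hX : X = g0 + γ * X) : SPos S X := by
  intro a b
  induction b using Nat.strong_induction_on generalizing a with
  | _ b ih =>
    rw [hX, cf_add, cf_mul]
    refine G.S_add (hg0 a b) (G.S_sum _ _ _ fun p hp => G.S_sum _ _ _ fun r hr => ?_)
    have h1 := mem_antidiagonal.mp hp
    have h2 := mem_antidiagonal.mp hr
    by_cases hp1 : p.1 = 0
    · rw [hp1, h0, zero_mul]
      exact G.S_zero a
    · have h3 := G.S_mul (hγ r.1 p.1) (ih p.2 (by omega) r.2)
      rwa [h2] at h3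

lemma fix_Sup {γ g0 X : R2 V} (hγ : Sup γ) (h0 : ∀ a, cf γ a 0 = 0)
    (hg0 : Sup g0) (hX : X = g0 + γ * X) : Sup X := by
  intro a b
  induction b using Nat.strong_induction_on generalizing a with
  | _ b ih =>
    intro hab
    rw [hX, cf_add, cf_mul, hg0 a b hab, zero_add]
    refine sum_eq_zero fun p hp => sum_eq_zero fun r hr => ?_
    have h1 := mem_antidiagonal.mp hp
    have h2 := mem_antidiagonal.mp hr
    by_cases hp1 : p.1 = 0
    · rw [hp1, h0, zero_mul]
    · by_cases h3 : p.1 < r.1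
      · rw [hγ _ _ h3, zero_mul]
      · rw [ih p.2 (by omega) r.2 (by omega), mul_zero]

lemma Ghat_fix (he : e 0 = 1) : Ghat q e = 1 + gam q e * Ghat q e := by
  have h := mul_Ghat (q := q) he
  linear_combination h

lemma SPos_Ghat (G : Gr S C q e F) (he : e 0 = 1) : SPos S (Ghat q e) :=
  fix_SPos G (SPos_gam G he) (cf_gam_zero he) (SPos_one G) (Ghat_fix he)

lemma Sup_Ghat (he : e 0 = 1) : Sup (Ghat q e) :=
  fix_Sup (Sup_gam q e) (cf_gam_zero he) Sup_one (Ghat_fix he)

/-- `(1 - T) * Ghat`. -/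
noncomputable def bB (q : V) (e : ℕ → V) : R2 V := (1 - Tv) * Ghat q e

lemma bB_eq (he : e 0 = 1) : bB q e = 1 + gam2 q e * Ghat q e := by
  have h := mul_Ghat (q := q) he
  rw [gam_eq] at h
  rw [bB]
  linear_combination h

lemma SPos_bB (G : Gr S C q e F) (he : e 0 = 1) : SPos S (bB q e) := by
  rw [bB_eq he]
  exact SPos.add G (SPos_one G) (SPos.mul G (SPos_gam2 G he) (SPos_Ghat G he))

lemma Sup_bB (he : e 0 = 1) : Sup (bB q e) := by
  rw [bB_eq he]
  exact Sup_one.add ((Sup_gam2 q e).mul (Sup_Ghat he))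

/-- The kernel with the signed coefficients. -/
noncomputable def JJ (q : V) (e : ℕ → V) : R2 V :=
  serT aT * serZ (fun n => qi q n * e n) - serT (bT q) * serZ e

lemma cf_JJ (a b : ℕ) : cf (JJ q e) a b = (aT b : V) * (qi q a * e a) - bT q b * e a := by
  rw [JJ, cf_sub, cf_serT_mul_serZ, cf_serT_mul_serZ]

lemma JJ_eq (q : V) (e : ℕ → V) :
    JJ q e * (1 - Tv) * (1 - Cv q * Tv)
      = Tv * ((1 - Cv q * Tv) * (serZ (fun n => qi q n * e n) - serZ e) - Cv q * serZ e) := by
  have h1 := one_sub_mul_aT (V := V)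
  have h2 := one_sub_mul_bT q
  rw [JJ]
  linear_combination (serZ (fun n => qi q n * e n) * (1 - Cv q * Tv)) * h1 - serZ e * h2

lemma closure_ring {R : Type*} [CommRing R] (T c E' P' E2 PZ PE E P K K' u G J : R)
    (hu : (1 - c * T) * u = 1)
    (hG : (1 - ((1 - (E' - P')) + T * (E2 * u))) * G = 1)
    (hJ : J * (1 - T) * (1 - c * T) = T * ((1 - c * T) * (P - E) - c * E))
    (H : ((1 - c * T) * (E' - P') - T * E2) * PZ + T * ((1 - c * T) * (E - P) + c * E) * PE
      = (1 - c * T) * E' * K + c * T * (1 - T) * E * K') :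
    PZ = G * E' * K + c * T * u * ((1 - T) * G) * E * K' + J * (((1 - T) * G) * PE) := by
  linear_combination (u * G) * H
    - ((1 - ((1 - (E' - P')) + T * (E2 * u))) * G * PZ + u * G * T * E2 * PZ
        - G * J * (1 - T) * PE - G * E' * K) * hu
    - PZ * hG - u * G * PE * hJ

theorem closure_eq (he : e 0 = 1) {Φ : ℕ → ℕ → V} (H : starL q e Φ = starR q e F) :
    phiZ Φ = Ghat q e * serE q e * serZ F + Cv q * Tv * uu q * bB q e * serZ e * serE q F
      + JJ q e * (bB q e * phiE q Φ) := by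
  have hG := mul_Ghat (q := q) he
  simp only [gam, gG] at hG
  exact closure_ring Tv (Cv q) _ _ _ _ _ _ _ _ _ _ _ _ (one_sub_mul_uu q) hG (JJ_eq q e) H

theorem main_abs (G : Gr S C q e F) (he : e 0 = 1) {Φ : ℕ → ℕ → V} (hΦ0 : ∀ m, Φ m 0 = F m)
    (H : starL q e Φ = starR q e F)
    (HJ : ∀ r, Φ 0 (r + 1) = qi q (r + 1) * F (r + 1)
      + ∑ k ∈ Ico 1 (r + 1), q * qi q (k - 1) * Φ k (r + 1 - k)) :
    ∀ r m, Φ m r ∈ C (m + r) := by
  intro β
  induction β using Nat.strong_induction_on with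
  | _ β ih =>
    intro m
    cases m with
    | zero =>
      cases β with
      | zero =>
        rw [hΦ0]
        exact G.C_F 0
      | succ r =>
        rw [HJ r, zero_add]
        refine G.C_add (G.C_mul0 (G.S_qi _) (G.C_F _)) (G.C_sum _ _ _ fun k hk => ?_)
        have hk' := mem_Ico.mp hk
        by_cases hk1 : k = 1
        · subst hk1
          simpa using G.C_zero (r + 1)
        · have h1 := G.C_mul0 (G.S_mul0 G.S_q (G.S_qi (k - 1))) (ih (r + 1 - k) (by omega) k)
          have h2 : k + (r + 1 - k) = r + 1 := by omega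
          rwa [h2] at h1
    | succ m' =>
      have hval : Φ (m' + 1) β = cf (phiZ Φ) (m' + 1 + β) β := by
        simp [phiZ]
      rw [hval, closure_eq he H, cf_add, cf_add]
      have hb := SPos_bB G he
      refine G.C_add (G.C_add ?_ ?_) ?_
      · exact CPos.mul G (SPos.mul G (SPos_Ghat G he) (SPos_serE G (G.S_e))) (CPos_serZ G) _ _
      · exact CPos.mul G (SPos.mul G (SPos.mul G (SPos.mul G (SPos.mul G (SPos_Cv G G.S_q) (SPos_Tv G))
          (SPos_uu G)) hb) (SPos_serZ G G.S_e)) (CPos_serE G) _ _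
      · have hPE : ∀ a b, b < β → cf (phiE q Φ) a b ∈ C a := by
          intro a b hb'
          simp only [phiE, cf_mk2]
          split_ifs with h
          · have h1 := G.C_mul0 (G.S_pow (b - a)) (ih (2 * a - b) (by omega) (b - a))
            have h2 : b - a + (2 * a - b) = a := by omega
            rwa [h2] at h1
          · exact G.C_zero a
        have hB : ∀ a b, b < β → cf (bB q e * phiE q Φ) a b ∈ C a := by
          intro a b hb'
          rw [cf_mul]
          refine G.C_sum _ _ _ fun p hp => G.C_sum _ _ _ fun r hr => ?_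
          have h1 := mem_antidiagonal.mp hp
          have h2 := mem_antidiagonal.mp hr
          have h3 := G.C_mul (hb r.1 p.1) (hPE r.2 p.2 (by omega))
          rwa [h2] at h3
        have hSB : Sup (bB q e * phiE q Φ) := (Sup_bB he).mul (Sup_phiE q Φ)
        rw [cf_mul]
        refine G.C_sum _ _ _ fun p hp => G.C_sum _ _ _ fun r hr => ?_
        have h1 := mem_antidiagonal.mp hp
        have h2 := mem_antidiagonal.mp hr
        by_cases hp1 : p.1 = 0
        · rw [cf_JJ, hp1]
          simp only [aT, bT, if_true]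
          simpa using G.C_zero _
        · by_cases hlt : p.2 < r.2
          · rw [hSB _ _ hlt, mul_zero]
            exact G.C_zero _
          · have hcoef : cf (JJ q e) r.1 p.1 ∈ S r.1 := by
              rw [cf_JJ]
              simp only [aT, bT, hp1, if_false]
              obtain ⟨d, hd⟩ : ∃ d, r.1 = p.1 + 1 + d := ⟨r.1 - (p.1 + 1), by omega⟩
              have h5 : (1 : V) * (qi q r.1 * e r.1) - qi q (p.1 + 1) * e r.1
                  = (q ^ (p.1 + 1) * qi q d) * e r.1 := by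
                rw [hd, qi_add]
                ring
              rw [h5]
              exact G.S_mul0 (G.S_mul0 (G.S_pow _) (G.S_qi d)) (G.S_e _)
            have h6 := G.C_mul hcoef (hB r.2 p.2 (by omega))
            rwa [h2] at h6

end main

end Vale.Agent.Lib.P066B
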