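import Vale.Agent.Lib.P066B.Ser
import Vale.Agent.Lib.P066B.Ops

/-!
For a fixed number of colours: the expansion of the transfer operators in double series, the
functional equation, and the companion recursion for the first coefficient.
-/

set_option linter.unusedSectionVars false
set_option linter.unusedVariables false
set_option linter.unusedSimpArgs false

namespace Vale.Agent.Lib.P066B

open Finset PowerSeries

section gen

variable {B R : Type*} [CommRing B] [CommRing R] {N : ℕ}

/-- Elementary symmetric sum of a family. -/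
def esy {κ : Type*} (V : Finset κ) (w : κ → B) (k : ℕ) : B :=
  ∑ S ∈ V.powersetCard k, ∏ p ∈ S, w p

lemma esy_zero_of_lt {κ : Type*} (V : Finset κ) (w : κ → B) {k : ℕ} (h : V.card < k) :
    esy V w k = 0 := by
  rw [esy, powersetCard_eq_empty.mpr h, sum_empty]

lemma esy_const_mul {κ : Type*} (V : Finset κ) (w : κ → B) (u : B) (k : ℕ) :
    esy V (fun p => u * w p) k = u ^ k * esy V w k := by
  unfold esy
  rw [mul_sum]
  refine sum_congr rfl fun S hS => ?_
  rw [prod_mul_distrib, prod_const, (mem_powersetCard.mp hS).2]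

lemma map_esy {κ : Type*} (ι : B →+* R) (V : Finset κ) (w : κ → B) (k : ℕ) :
    ι (esy V w k) = esy V (fun p => ι (w p)) k := by
  simp [esy, map_sum, map_prod]

/-- Expansion of a product. -/
lemma prod_expand (ι : B →+* R) (a : Fin N → B) (w : R) :
    ∏ j, (1 + ι (a j) * w) = ∑ m ∈ range (N + 1), ι (esy univ a m) * w ^ m := by
  rw [prod_one_add]
  have hmaps : ∀ t ∈ (univ : Finset (Fin N)).powerset, t.card ∈ range (N + 1) := by
    intro t _
    have := card_le_univ t
    simp only [Fintype.card_fin] at this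
    exact mem_range.mpr (by omega)
  rw [← sum_fiberwise_of_maps_to hmaps]
  refine sum_congr rfl fun m _ => ?_
  rw [esy, map_sum, sum_mul, powersetCard_eq_filter]
  refine sum_congr rfl fun S hS => ?_
  rw [prod_mul_distrib, prod_const, (mem_filter.mp hS).2, map_prod]

variable (q : B) (x : Fin N → B)

/-- The elementary symmetric functions of the variables. -/
def eN (n : ℕ) : B := esy univ x n

/-- The basic functions of one colour. -/
def FN (m : ℕ) (c : Fin N) : B := esy univ (fun j => ef q j c * x j) m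

/-- The block transfer applied to a basic function. -/
def TT (m r : ℕ) (c : Fin N) : B := Tr q x r (FN q x m) c

/-- The family with `Φ m 0 = F m` and `Φ m (r + 1) = T m r`. -/
def PhiN (m : ℕ) : ℕ → Fin N → B
  | 0 => FN q x m
  | r + 1 => TT q x m r

lemma eN_zero : eN x 0 = 1 := by
  simp [eN, esy]

lemma eN_of_gt {n : ℕ} (h : N < n) : eN x n = 0 :=
  esy_zero_of_lt _ _ (by simpa using h)

lemma FN_of_gt {m : ℕ} (h : N < m) : FN q x m = 0 := by
  funext c
  exact esy_zero_of_lt _ _ (by simpa using h)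

lemma FN_zero (c : Fin N) : FN q x 0 c = 1 := by
  simp [FN, esy]

lemma TT_of_gt {m : ℕ} (h : N < m) (r : ℕ) (c : Fin N) : TT q x m r c = 0 := by
  simp [TT, FN_of_gt q x h]

lemma PhiN_of_gt {m : ℕ} (h : N < m) (r : ℕ) (c : Fin N) : PhiN q x m r c = 0 := by
  cases r with
  | zero => simp [PhiN, FN_of_gt q x h]
  | succ r => exact TT_of_gt q x h r c

variable (ι : B →+* R)

lemma map_ef (a b : Fin N) : ι (ef q a b) = ef (ι q) a b := by
  unfold ef
  split_ifs <;> simp

lemma opU_map (g : Fin N → Fin N → B) :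
    opU (ι q) (fun j => ι (x j)) (fun a b => ι (g a b)) = fun a b => ι (opU q x g a b) := by
  funext a b
  simp [opU_apply, map_sum, map_ef]

lemma opR_map (g : Fin N → Fin N → B) :
    opR (ι q) (fun j => ι (x j)) (fun a b => ι (g a b)) = fun b => ι (opR q x g b) := by
  funext b
  simp [opR_apply, map_sum, map_ef]

lemma opU_pow_map (g : Fin N → Fin N → B) (r : ℕ) :
    ((opU (ι q) (fun j => ι (x j))) ^ r : Module.End R (Fin N → Fin N → R)) (fun a b => ι (g a b))
      = fun a b => ι (((opU q x) ^ r : Module.End B (Fin N → Fin N → B)) g a b) := by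
  induction r with
  | zero => rfl
  | succ r ih =>
    rw [pow_succ', pow_succ', Module.End.mul_apply, ih, Module.End.mul_apply, opU_map]

lemma Tr_map (g : Fin N → B) (r : ℕ) (c : Fin N) :
    Tr (ι q) (fun j => ι (x j)) r (fun c => ι (g c)) c = ι (Tr q x r g c) := by
  rw [Tr_apply, Tr_apply]
  have h : (opA (fun c => ι (g c)) : Fin N → Fin N → R) = fun a b => ι ((opA g : Fin N → Fin N → B) a b) := rfl
  rw [h, opU_pow_map, opR_map]

lemma PP_expand (w : R) (c : Fin N) :
    PP (ι q) (fun j => ι (x j)) w c = ∑ m ∈ range (N + 1), ι (FN q x m c) * w ^ m := by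
  unfold PP FN
  rw [← prod_expand]
  refine prod_congr rfl fun j _ => ?_
  rw [map_mul, map_ef]

lemma Lam_zero_expand (w : R) :
    Lam (ι q) (fun j => ι (x j)) w 0 = ∑ m ∈ range (N + 1), ι (eN x m) * w ^ m := by
  unfold Lam eN
  rw [← prod_expand]
  refine prod_congr rfl fun j _ => ?_
  simp

lemma Lam_top_expand (w : R) :
    Lam (ι q) (fun j => ι (x j)) w N = ∑ m ∈ range (N + 1), ι (q ^ m * eN x m) * w ^ m := by
  unfold Lam eN
  have h := prod_expand ι (fun j => q * x j) w
  simp only [esy_const_mul] at h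
  rw [← h]
  refine prod_congr rfl fun j _ => ?_
  simp [j.isLt]

lemma SS_top_eq (w : R) :
    SS (ι q) (fun j => ι (x j)) w N = ∑ c, ι (x c) * PP (ι q) (fun j => ι (x j)) w c := by
  unfold SS
  refine sum_congr rfl fun c _ => ?_
  simp [c.isLt]

/-- As a function, `PP` is a finite combination of the basic functions. -/
lemma PP_as_sum (w : R) :
    PP (ι q) (fun j => ι (x j)) w
      = ∑ m ∈ range (N + 1), w ^ m • (fun c => ι (FN q x m c)) := by
  funext c
  rw [PP_expand, Finset.sum_apply]
  refine sum_congr rfl fun m _ => ?_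
  simp only [Pi.smul_apply, smul_eq_mul]
  ring

lemma Tr_PP (r : ℕ) (w : R) (c : Fin N) :
    Tr (ι q) (fun j => ι (x j)) r (PP (ι q) (fun j => ι (x j)) w) c
      = ∑ m ∈ range (N + 1), ι (TT q x m r c) * w ^ m := by
  rw [PP_as_sum, map_sum, Finset.sum_apply]
  refine sum_congr rfl fun m _ => ?_
  rw [map_smul, Pi.smul_apply, smul_eq_mul, Tr_map, mul_comm]
  rfl

end gen

section twovar

variable {B : Type*} [CommRing B] {N : ℕ}

/-- The constants as a ring homomorphism. -/
noncomputable def cvHom : B →+* R2 B := (C).comp C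

lemma cvHom_apply (c : B) : cvHom c = Cv c := rfl

lemma cf_sum {ι' : Type*} (s : Finset ι') (f : ι' → R2 B) (a b : ℕ) :
    cf (∑ i ∈ s, f i) a b = ∑ i ∈ s, cf (f i) a b := by
  simp [cf, map_sum]

lemma cf_s_pow_mul (f : R2 B) (r a b : ℕ) :
    cf ((Zv * Tv) ^ r * f) a b = if r ≤ a ∧ r ≤ b then cf f (a - r) (b - r) else 0 := by
  induction r generalizing a b with
  | zero => simp
  | succ r ih =>
    have h : (Zv * Tv : R2 B) ^ (r + 1) * f = Zv * (Tv * ((Zv * Tv) ^ r * f)) := by ring
    rw [h, cf_Zv_mul, cf_Tv_mul]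
    by_cases ha : a = 0
    · simp [ha]
    · by_cases hb : b = 0
      · simp [ha, hb]
      · simp only [ha, hb, if_false, ih]
        by_cases h1 : r ≤ a - 1 ∧ r ≤ b - 1
        · have h2 : r + 1 ≤ a ∧ r + 1 ≤ b := by omega
          rw [if_pos h1, if_pos h2]
          congr 1 <;> omega
        · have h2 : ¬ (r + 1 ≤ a ∧ r + 1 ≤ b) := by omega
          rw [if_neg h1, if_neg h2]

/-- `∑ Cv (f n) * Z ^ n = serZ f` when `f` has finite support. -/
lemma serZ_eq_sum (f : ℕ → B) (M : ℕ) (hf : ∀ n, M ≤ n → f n = 0) :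
    ∑ n ∈ range M, cvHom (f n) * (Zv : R2 B) ^ n = serZ f := by
  have hm : ∀ (k : ℕ) (u : R2 B) (a b : ℕ),
      cf (Zv ^ k * u) a b = if k ≤ a then cf u (a - k) b else 0 := by
    intro k u a b
    induction k generalizing a with
    | zero => simp
    | succ k ih =>
      have h : (Zv : R2 B) ^ (k + 1) * u = Zv * (Zv ^ k * u) := by ring
      rw [h, cf_Zv_mul]
      by_cases ha : a = 0
      · simp [ha]
      · simp only [ha, if_false, ih]
        by_cases h1 : k ≤ a - 1
        · have h2 : k + 1 ≤ a := by omega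
          rw [if_pos h1, if_pos h2]
          congr 1
          omega
        · have h2 : ¬ k + 1 ≤ a := by omega
          rw [if_neg h1, if_neg h2]
  refine ext2 fun a b => ?_
  rw [cf_sum]
  have h2 : ∀ n, cf (cvHom (f n) * (Zv : R2 B) ^ n) a b
      = if n = a ∧ b = 0 then f a else 0 := by
    intro n
    rw [cvHom_apply, cf_Cv_mul]
    have h3 : (Zv : R2 B) ^ n = Zv ^ n * 1 := by ring
    rw [h3, hm, cf_one]
    by_cases h4 : n ≤ a
    · by_cases h5 : n = a ∧ b = 0
      · obtain ⟨rfl, rfl⟩ := h5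
        simp
      · have h6 : ¬ (a - n = 0 ∧ b = 0) := by omega
        rw [if_pos h4, if_neg h5, if_neg h6, mul_zero]
    · have h5 : ¬ (n = a ∧ b = 0) := by omega
      rw [if_neg h4, if_neg h5, mul_zero]
  simp only [h2, serZ, cf_mk2]
  by_cases hb : b = 0
  · subst hb
    by_cases ha : a < M
    · rw [sum_eq_single a]
      · simp
      · intro n _ hn
        simp [hn]
      · intro h
        exact absurd (mem_range.mpr ha) h
    · rw [sum_eq_zero]
      · simp [hf a (by omega)]
      · intro n hn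
        have : n ≠ a := by
          have := mem_range.mp hn
          omega
        simp [this]
  · simp [hb]

/-- The variable `ζ`. -/
noncomputable def zeN (q : B) : R2 B := Cv q * Zv * Tv * Tv

lemma zeN_pow (q : B) (n : ℕ) : zeN q ^ n = Cv (q ^ n) * ((Zv * Tv) ^ n * Tv ^ n) := by
  have h : Cv (q ^ n) = (Cv q : R2 B) ^ n := by
    simp [Cv, map_pow]
  rw [h, zeN]
  ring

lemma cf_Tv_pow_mul (k : ℕ) (u : R2 B) (a b : ℕ) :
    cf (Tv ^ k * u) a b = if k ≤ b then cf u a (b - k) else 0 := by
  induction k generalizing b with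
  | zero => simp
  | succ k ih =>
    have h : (Tv : R2 B) ^ (k + 1) * u = Tv * (Tv ^ k * u) := by ring
    rw [h, cf_Tv_mul]
    by_cases hb : b = 0
    · simp [hb]
    · simp only [hb, if_false, ih]
      by_cases h1 : k ≤ b - 1
      · have h2 : k + 1 ≤ b := by omega
        rw [if_pos h1, if_pos h2]
        congr 1
        omega
      · have h2 : ¬ k + 1 ≤ b := by omega
        rw [if_neg h1, if_neg h2]

/-- `∑ Cv (f n) * ζ ^ n = serE q f` when `f` has finite support. -/
lemma serE_eq_sum (q : B) (f : ℕ → B) (M : ℕ) (hf : ∀ n, M ≤ n → f n = 0) :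
    ∑ n ∈ range M, cvHom (f n) * zeN q ^ n = serE q f := by
  refine ext2 fun a b => ?_
  rw [cf_sum]
  have h2 : ∀ n, cf (cvHom (f n) * zeN q ^ n) a b
      = if n = a ∧ b = 2 * a then q ^ a * f a else 0 := by
    intro n
    rw [cvHom_apply, cf_Cv_mul, zeN_pow, cf_Cv_mul, cf_s_pow_mul]
    have h3 : (Tv : R2 B) ^ n = Tv ^ n * 1 := by ring
    rw [h3, cf_Tv_pow_mul, cf_one]
    by_cases h5 : n = a ∧ b = 2 * a
    · obtain ⟨rfl, rfl⟩ := h5
      have h6 : n ≤ n ∧ n ≤ 2 * n := by omega
      have h7 : n ≤ 2 * n - n := by omega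
      have h8 : 2 * n - n - n = 0 := by omega
      simp only [h6, h7, h8, if_true, and_self, tsub_self]
      simp
      ring
    · rw [if_neg h5]
      by_cases h6 : n ≤ a ∧ n ≤ b
      · rw [if_pos h6]
        by_cases h7 : n ≤ b - n
        · rw [if_pos h7]
          have h8 : ¬ (a - n = 0 ∧ b - n - n = 0) := by omega
          rw [if_neg h8]
          simp
        · rw [if_neg h7]
          simp
      · rw [if_neg h6]
        simp
  simp only [h2, serE, cf_mk2]
  by_cases hb : b = 2 * a
  · subst hb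
    by_cases ha : a < M
    · rw [sum_eq_single a]
      · simp
      · intro n _ hn
        simp [hn]
      · intro h
        exact absurd (mem_range.mpr ha) h
    · rw [sum_eq_zero]
      · simp [hf a (by omega)]
      · intro n hn
        have : n ≠ a := by
          have := mem_range.mp hn
          omega
        simp [this]
  · simp [hb]

/-- Partial sums agree with the series at low `T`-degree. -/
lemma partial_phiZ (Φ : ℕ → ℕ → B) (n a b : ℕ) (hb : b ≤ n) :
    cf (∑ r ∈ range (n + 1), (Zv * Tv) ^ r * serZ (fun m => Φ m r)) a b = cf (phiZ Φ) a b := by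
  rw [cf_sum]
  simp only [cf_s_pow_mul, serZ, cf_mk2, phiZ]
  rw [sum_eq_single b]
  · by_cases h1 : b ≤ a
    · simp [h1]
    · simp [h1]
  · intro r _ hr
    by_cases h1 : r ≤ a ∧ r ≤ b
    · have h2 : b - r ≠ 0 := by omega
      simp [h1, h2]
    · simp [h1]
  · intro h
    exact absurd (mem_range.mpr (by omega)) h

lemma partial_phiE (q : B) (Φ : ℕ → ℕ → B) (n a b : ℕ) (hb : b ≤ n) :
    cf (∑ r ∈ range (n + 1), (Zv * Tv) ^ r * serE q (fun m => Φ m r)) a b = cf (phiE q Φ) a b := by
  rw [cf_sum]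
  simp only [cf_s_pow_mul, serE, cf_mk2, phiE]
  by_cases h0 : a ≤ b ∧ b ≤ 2 * a
  · rw [if_pos h0, sum_eq_single (2 * a - b)]
    · have h1 : 2 * a - b ≤ a ∧ 2 * a - b ≤ b := by omega
      have h2 : b - (2 * a - b) = 2 * (a - (2 * a - b)) := by omega
      have h3 : a - (2 * a - b) = b - a := by omega
      rw [if_pos h1, if_pos h2, h3]
    · intro r _ hr
      by_cases h1 : r ≤ a ∧ r ≤ b
      · rw [if_pos h1, if_neg (by omega)]
      · rw [if_neg h1]
    · intro h
      exact absurd (mem_range.mpr (by omega)) h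
  · rw [if_neg h0]
    refine sum_eq_zero fun r _ => ?_
    by_cases h1 : r ≤ a ∧ r ≤ b
    · rw [if_pos h1, if_neg (by omega)]
    · rw [if_neg h1]

lemma cf_mul_low {f g : R2 B} (n : ℕ) (h : ∀ a b, b ≤ n → cf f a b = cf g a b) (u : R2 B)
    (a b : ℕ) (hb : b ≤ n) : cf (u * f) a b = cf (u * g) a b := by
  rw [cf_mul, cf_mul]
  refine sum_congr rfl fun p hp => sum_congr rfl fun r _ => ?_
  have h1 := mem_antidiagonal.mp hp
  rw [h r.2 p.2 (by omega)]

end twovar

section star

variable {B : Type*} [CommRing B] {N : ℕ} (q : B) (x : Fin N → B)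

lemma serZ_FN_eq (f : ℕ → B) (hf : ∀ n, N < n → f n = 0) :
    ∑ m ∈ range (N + 1), cvHom (f m) * (Zv : R2 B) ^ m = serZ f :=
  serZ_eq_sum f (N + 1) fun n hn => hf n (by omega)

lemma serE_FN_eq (f : ℕ → B) (hf : ∀ n, N < n → f n = 0) :
    ∑ m ∈ range (N + 1), cvHom (f m) * zeN q ^ m = serE q f :=
  serE_eq_sum q f (N + 1) fun n hn => hf n (by omega)

lemma qi_mul (q : B) (n : ℕ) : (q - 1) * qi q n = q ^ n - 1 := by
  induction n with
  | zero => simp
  | succ k ih =>
    rw [qi_succ, mul_add, ih]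
    ring

/-- The sum of the basic functions, in a domain. -/
lemma sum_FN [IsDomain B] (hq : q ≠ 1) (m : ℕ) :
    ∑ c, x c * FN q x m c = qi q (m + 1) * eN x (m + 1) := by
  have h := tele (C q : PowerSeries B) (fun j => (C (x j) : PowerSeries B)) (X : PowerSeries B) N
  have hL : ∀ k, coeff k (Lam (C q : PowerSeries B) (fun j => (C (x j) : PowerSeries B)) X N)
      = q ^ k * eN x k := by
    intro k
    have h1 := Lam_top_expand q x (C : B →+* PowerSeries B) (X : PowerSeries B)
    rw [h1, map_sum]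
    simp only [PowerSeries.coeff_C_mul_X_pow]
    by_cases hk : k < N + 1
    · rw [sum_eq_single k]
      · simp
      · intro n _ hn
        simp [hn.symm]
      · intro h2
        exact absurd (mem_range.mpr hk) h2
    · rw [eN_of_gt x (by omega), mul_zero]
      refine sum_eq_zero fun n hn => ?_
      have : k ≠ n := by
        have := mem_range.mp hn
        omega
      simp [this]
  have hE : ∀ k, coeff k (Lam (C q : PowerSeries B) (fun j => (C (x j) : PowerSeries B)) X 0)
      = eN x k := by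
    intro k
    have h1 := Lam_zero_expand q x (C : B →+* PowerSeries B) (X : PowerSeries B)
    rw [h1, map_sum]
    simp only [PowerSeries.coeff_C_mul_X_pow]
    by_cases hk : k < N + 1
    · rw [sum_eq_single k]
      · simp
      · intro n _ hn
        simp [hn.symm]
      · intro h2
        exact absurd (mem_range.mpr hk) h2
    · rw [eN_of_gt x (by omega)]
      refine sum_eq_zero fun n hn => ?_
      have : k ≠ n := by
        have := mem_range.mp hn
        omega
      simp [this]
  have hS : coeff m (SS (C q : PowerSeries B) (fun j => (C (x j) : PowerSeries B)) X N)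
      = ∑ c, x c * FN q x m c := by
    rw [SS_top_eq q x (C : B →+* PowerSeries B), map_sum]
    refine sum_congr rfl fun c _ => ?_
    rw [PowerSeries.coeff_C_mul, PP_expand, map_sum]
    congr 1
    simp only [PowerSeries.coeff_C_mul_X_pow]
    by_cases hk : m < N + 1
    · rw [sum_eq_single m]
      · simp
      · intro n _ hn
        simp [hn.symm]
      · intro h2
        exact absurd (mem_range.mpr hk) h2
    · rw [FN_of_gt q x (by omega)]
      refine (sum_eq_zero fun n hn => ?_)
      have : m ≠ n := by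
        have := mem_range.mp hn
        omega
      simp [this]
  have h3 := congrArg (coeff (m + 1)) h
  have h4 : (C q - 1 : PowerSeries B) * X * SS (C q : PowerSeries B) (fun j => (C (x j) : PowerSeries B)) X N
      = C (q - 1) * (SS (C q : PowerSeries B) (fun j => (C (x j) : PowerSeries B)) X N * X) := by
    rw [map_sub, map_one]
    ring
  rw [h4, PowerSeries.coeff_C_mul, PowerSeries.coeff_succ_mul_X, map_sub, hL, hE, hS] at h3
  have h5 : q - 1 ≠ 0 := sub_ne_zero.mpr hq
  apply mul_left_cancel₀ h5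
  rw [h3]
  rw [← mul_assoc, qi_mul]
  ring

lemma qi_eN_of_gt {n : ℕ} (h : N < n) : qi q n * eN x n = 0 := by
  rw [eN_of_gt x h, mul_zero]

/-- Finite expansion of `w * SS w N`. -/
lemma mul_SS_top [IsDomain B] (hq : q ≠ 1) {R : Type*} [CommRing R] (ι : B →+* R) (w : R) :
    w * SS (ι q) (fun j => ι (x j)) w N
      = ∑ n ∈ range (N + 1), ι (qi q n * eN x n) * w ^ n := by
  rw [SS_top_eq q x ι]
  simp only [PP_expand q x ι w, mul_sum]
  rw [sum_comm]
  have h1 : ∀ m, ∑ c, w * (ι (x c) * (ι (FN q x m c) * w ^ m))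
      = ι (qi q (m + 1) * eN x (m + 1)) * w ^ (m + 1) := by
    intro m
    rw [← sum_FN q x hq m, map_sum, sum_mul]
    refine sum_congr rfl fun c _ => ?_
    rw [map_mul, pow_succ]
    ring
  have h0 : ι (qi q 0 * eN x 0) * w ^ 0 = 0 := by simp
  have h2 : ι (qi q (N + 1) * eN x (N + 1)) * w ^ (N + 1) = 0 := by
    rw [qi_eN_of_gt q x (by omega)]
    simp
  calc ∑ m ∈ range (N + 1), ∑ c, w * (ι (x c) * (ι (FN q x m c) * w ^ m))
      = ∑ m ∈ range (N + 1), ι (qi q (m + 1) * eN x (m + 1)) * w ^ (m + 1) :=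
        sum_congr rfl fun m _ => h1 m
    _ = ∑ m ∈ range (N + 1), ι (qi q (m + 1) * eN x (m + 1)) * w ^ (m + 1)
          + ι (qi q 0 * eN x 0) * w ^ 0 := by rw [h0, add_zero]
    _ = ∑ n ∈ range (N + 1 + 1), ι (qi q n * eN x n) * w ^ n :=
        (sum_range_succ' (fun n => ι (qi q n * eN x n) * w ^ n) (N + 1)).symm
    _ = ∑ n ∈ range (N + 1), ι (qi q n * eN x n) * w ^ n
          + ι (qi q (N + 1) * eN x (N + 1)) * w ^ (N + 1) := sum_range_succ _ _
    _ = _ := by rw [h2, add_zero]

/-- The functional equation for a fixed number of colours and a fixed colour. -/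
theorem starN [IsDomain B] (hq : q ≠ 1) (c : Fin N) :
    starL q (eN x) (fun m r => PhiN q x m r c) = starR q (eN x) (fun m => FN q x m c) := by
  let qh : R2 B := cvHom q
  let xh : Fin N → R2 B := fun j => cvHom (x j)
  let Lc : R2 B := (1 - Cv q * Tv) * (serE q (eN x) - serE q (fun n => qi q n * eN x n))
      - Tv * serE q (fun n => q ^ n * eN x n)
  let Rc : R2 B := Tv * ((1 - Cv q * Tv) * (serZ (eN x) - serZ (fun n => qi q n * eN x n))
      + Cv q * serZ (eN x))
  have hze : qh * Zv * Tv * Tv = zeN q := rfl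
  -- expansions of the basic products
  have hPZ : ∀ d, PP qh xh Zv d = serZ (fun m => FN q x m d) := by
    intro d
    rw [← serZ_FN_eq _ (fun n hn => by rw [FN_of_gt q x hn]; rfl)]
    exact PP_expand q x cvHom Zv d
  have hPE : ∀ d, PP qh xh (zeN q) d = serE q (fun m => FN q x m d) := by
    intro d
    rw [← serE_FN_eq q _ (fun n hn => by rw [FN_of_gt q x hn]; rfl)]
    exact PP_expand q x cvHom (zeN q) d
  have hEZ : Lam qh xh Zv 0 = serZ (eN x) := by
    rw [← serZ_FN_eq _ (fun n hn => eN_of_gt x hn)]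
    exact Lam_zero_expand q x cvHom Zv
  have hEE : Lam qh xh (zeN q) 0 = serE q (eN x) := by
    rw [← serE_FN_eq q _ (fun n hn => eN_of_gt x hn)]
    exact Lam_zero_expand q x cvHom (zeN q)
  have hE2 : Lam qh xh (zeN q) N = serE q (fun n => q ^ n * eN x n) := by
    rw [← serE_FN_eq q _ (fun n hn => by rw [eN_of_gt x hn, mul_zero])]
    exact Lam_top_expand q x cvHom (zeN q)
  have hSZ : Zv * SS qh xh Zv N = serZ (fun n => qi q n * eN x n) := by
    rw [← serZ_FN_eq _ (fun n hn => qi_eN_of_gt q x hn)]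
    exact mul_SS_top q x hq cvHom Zv
  have hSE : zeN q * SS qh xh (zeN q) N = serE q (fun n => qi q n * eN x n) := by
    rw [← serE_FN_eq q _ (fun n hn => qi_eN_of_gt q x hn)]
    exact mul_SS_top q x hq cvHom (zeN q)
  have hW : WW qh xh Zv Tv = Lc • PP qh xh Zv + Rc • PP qh xh (zeN q) := by
    funext a
    simp only [WW, hze, hEE, hSE, hE2, hEZ, hSZ, Pi.add_apply, Pi.smul_apply, smul_eq_mul, Lc, Rc]
    rfl
  have hV : VV qh xh Zv Tv c = starR q (eN x) (fun m => FN q x m c) := by
    simp only [VV, hze, hEE, hEZ, hPZ, hPE, starR]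
    rfl
  -- transfer applied to the source
  have hTr : ∀ r, Tr qh xh r (WW qh xh Zv Tv) c
      = Lc * serZ (fun m => PhiN q x m (r + 1) c) + Rc * serE q (fun m => PhiN q x m (r + 1) c) := by
    intro r
    rw [hW, map_add, map_smul, map_smul, Pi.add_apply, Pi.smul_apply, Pi.smul_apply, smul_eq_mul,
      smul_eq_mul]
    have h1 := Tr_PP q x cvHom r Zv c
    have h2 := Tr_PP q x cvHom r (zeN q) c
    rw [serZ_FN_eq _ (fun n hn => TT_of_gt q x hn r c)] at h1
    rw [serE_FN_eq q _ (fun n hn => TT_of_gt q x hn r c)] at h2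
    change Tr qh xh r (PP qh xh Zv) c = _ at h1
    change Tr qh xh r (PP qh xh (zeN q)) c = _ at h2
    rw [h1, h2]
    rfl
  refine ext2 fun a b => ?_
  -- expand up to order `b`
  have hI := iter_expand qh xh (Zv * Tv) (YY qh xh Zv Tv) (WW qh xh Zv Tv)
    (fun a' b' h' => bethe_U qh xh Zv Tv h') b
  have hVe := VV_eq qh xh Zv Tv c
  rw [hV, hI, Pi.add_apply, Finset.sum_apply, Pi.smul_apply, smul_eq_mul] at hVe
  simp only [Pi.smul_apply, smul_eq_mul, hTr] at hVe
  set Rem := opR qh xh (((opU qh xh) ^ b : Module.End (R2 B) (Fin N → Fin N → R2 B)) (YY qh xh Zv Tv)) c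
    with hRem
  have hWc : WW qh xh Zv Tv c = Lc * serZ (fun m => PhiN q x m 0 c)
      + Rc * serE q (fun m => PhiN q x m 0 c) := by
    rw [hW, Pi.add_apply, Pi.smul_apply, Pi.smul_apply, smul_eq_mul, smul_eq_mul, hPZ, hPE]
    rfl
  rw [hWc] at hVe
  have hsumZ := partial_phiZ (fun m r => PhiN q x m r c) b a b le_rfl
  have hsumE := partial_phiE q (fun m r => PhiN q x m r c) b a b le_rfl
  have hmain : starR q (eN x) (fun m => FN q x m c)
      = Lc * (∑ r ∈ range (b + 1), (Zv * Tv) ^ r * serZ (fun m => PhiN q x m r c))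
        + Rc * (∑ r ∈ range (b + 1), (Zv * Tv) ^ r * serE q (fun m => PhiN q x m r c))
        + (Zv * Tv) ^ (b + 1) * Rem := by
    rw [hVe]
    simp only [sum_range_succ' _ b, mul_add, mul_sum, pow_zero, one_mul]
    have h5 : ∀ r, Zv * Tv * ((Zv * Tv) ^ r * (Lc * serZ (fun m => PhiN q x m (r + 1) c)
        + Rc * serE q (fun m => PhiN q x m (r + 1) c)))
        = Lc * ((Zv * Tv) ^ (r + 1) * serZ (fun m => PhiN q x m (r + 1) c))
          + Rc * ((Zv * Tv) ^ (r + 1) * serE q (fun m => PhiN q x m (r + 1) c)) := by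
      intro r
      ring
    simp only [h5, sum_add_distrib, pow_succ]
    ring_nf
  rw [hmain]
  have hL : starL q (eN x) (fun m r => PhiN q x m r c)
      = Lc * phiZ (fun m r => PhiN q x m r c) + Rc * phiE q (fun m r => PhiN q x m r c) := rfl
  rw [hL, cf_add, cf_add, cf_add]
  have h6 := cf_mul_low b (fun a' b' hb' => (partial_phiZ (fun m r => PhiN q x m r c) b a' b' hb').symm) Lc a b le_rfl
  have h7 := cf_mul_low b (fun a' b' hb' => (partial_phiE q (fun m r => PhiN q x m r c) b a' b' hb').symm) Rc a b le_rfl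
  rw [h6, h7, cf_s_pow_mul, if_neg (by omega), add_zero]

end star

section jrec

variable {B : Type*} [CommRing B] {N : ℕ} (q : B) (x : Fin N → B)

/-- Coefficients in the companion recursion. -/
def gJ (q : B) : ℕ → B
  | 0 => 1
  | k + 1 => -(q * qi q k)

lemma gJ_spec (m : ℕ) : q ^ m - q = (1 - q) * gJ q m := by
  cases m with
  | zero => simp [gJ]
  | succ k =>
    have h := qi_mul q k
    simp only [gJ]
    linear_combination (-q) * h

lemma coeff_fin_sum (f : ℕ → B) (hf : ∀ n, N < n → f n = 0) (k : ℕ) :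
    coeff k (∑ m ∈ range (N + 1), (C (f m) : PowerSeries B) * X ^ m) = f k := by
  rw [map_sum]
  simp only [PowerSeries.coeff_C_mul_X_pow]
  by_cases hk : k < N + 1
  · rw [sum_eq_single k]
    · simp
    · intro n _ hn
      simp [hn.symm]
    · intro h2
      exact absurd (mem_range.mpr hk) h2
  · rw [hf k (by omega)]
    refine sum_eq_zero fun n hn => ?_
    have : k ≠ n := by
      have := mem_range.mp hn
      omega
    simp [this]

/-- The companion recursion for `T 0 r`. -/
theorem J_N [IsDomain B] (hq : q ≠ 1) (r : ℕ) (c : Fin N) :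
    TT q x 0 r c = qi q (r + 1) * FN q x (r + 1) c
      + ∑ k ∈ Ico 1 (r + 1), q * qi q (k - 1) * TT q x k (r - k) c := by
  let qh : PowerSeries B := C q
  let xh : Fin N → PowerSeries B := fun j => C (x j)
  let Xs : PowerSeries B := X
  let ze : PowerSeries B := qh * Xs * 1 * 1
  let eps : PowerSeries B := Lam qh xh Xs N
  have hze : ze = C q * X := by
    simp [ze, qh, Xs]
  have heps : Lam qh xh ze 0 = eps := by
    unfold Lam
    refine prod_congr rfl fun j _ => ?_
    have := j.isLt
    simp only [not_lt_zero, if_false, this, if_true, ze]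
    ring
  -- the function G
  let G : Fin N → PowerSeries B := fun a =>
    ∑ m ∈ range (N + 1), C (gJ q m * FN q x m a) * X ^ m
  have hPX : ∀ a, PP qh xh Xs a = ∑ m ∈ range (N + 1), C (FN q x m a) * X ^ m :=
    fun a => PP_expand q x C X a
  have hPze : ∀ a, PP qh xh ze a = ∑ m ∈ range (N + 1), C (q ^ m * FN q x m a) * X ^ m := by
    intro a
    have h1 : PP qh xh ze a = ∑ m ∈ range (N + 1), C (FN q x m a) * ze ^ m :=
      PP_expand q x C ze a
    rw [h1]
    refine sum_congr rfl fun m _ => ?_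
    rw [hze, mul_pow, ← map_pow, map_mul]
    ring
  have hG : ∀ a, PP qh xh ze a - qh * PP qh xh Xs a = (1 - qh) * G a := by
    intro a
    rw [hPze, hPX, mul_sum, mul_sum, ← sum_sub_distrib]
    refine sum_congr rfl fun m _ => ?_
    have h2 := congrArg (C : B →+* PowerSeries B) (gJ_spec q m)
    simp only [map_sub, map_mul, map_pow, map_one] at h2
    simp only [map_mul, map_pow, qh]
    linear_combination (C (FN q x m a) * X ^ m) * h2
  have hW : WW qh xh Xs 1 = (eps * (1 - qh)) • G := by
    funext a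
    have t1 := tele qh xh ze N
    have t2 := tele qh xh Xs N
    simp only [Pi.smul_apply, smul_eq_mul, WW]
    have hG' := hG a
    change ((1 - qh * 1) * (Lam qh xh ze 0 - ze * SS qh xh ze N) - 1 * Lam qh xh ze N) * PP qh xh Xs a
        + 1 * ((1 - qh * 1) * (Lam qh xh Xs 0 - Xs * SS qh xh Xs N) + qh * Lam qh xh Xs 0)
          * PP qh xh ze a = _
    rw [heps] at t1 ⊢
    have hepsdef : Lam qh xh Xs N = eps := rfl
    rw [hepsdef] at t2
    linear_combination (PP qh xh Xs a) * t1 + (PP qh xh ze a) * t2 + eps * hG'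
  have hV : VV qh xh Xs 1 c = (eps * (1 - qh)) * PP qh xh Xs c := by
    change (1 - qh * 1) * Lam qh xh ze 0 * PP qh xh Xs c
      + qh * 1 * (1 - 1) * Lam qh xh Xs 0 * PP qh xh ze c = _
    rw [heps]
    ring
  -- transfer of G
  have hGs : G = ∑ m ∈ range (N + 1), ((C (gJ q m) : PowerSeries B) * X ^ m) • (fun a => (C (FN q x m a) : PowerSeries B)) := by
    funext a
    rw [Finset.sum_apply]
    refine sum_congr rfl fun m _ => ?_
    simp only [Pi.smul_apply, smul_eq_mul, map_mul]
    ring
  have hTrG : ∀ r', Tr qh xh r' G c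
      = ∑ m ∈ range (N + 1), C (gJ q m * TT q x m r' c) * X ^ m := by
    intro r'
    rw [hGs, map_sum, Finset.sum_apply]
    refine sum_congr rfl fun m _ => ?_
    rw [map_smul, Pi.smul_apply, smul_eq_mul]
    have h := Tr_map q x (C : B →+* PowerSeries B) (FN q x m) r' c
    change Tr qh xh r' (fun c => (C (FN q x m c) : PowerSeries B)) c = _ at h
    rw [h]
    simp only [map_mul, TT]
    ring
  have hcoefG : ∀ k, coeff k (G c) = gJ q k * FN q x k c := by
    intro k
    exact coeff_fin_sum (fun m => gJ q m * FN q x m c)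
      (fun n hn => by rw [FN_of_gt q x hn]; simp) k
  have hcoefP : ∀ k, coeff k (PP qh xh Xs c) = FN q x k c := by
    intro k
    rw [hPX]
    exact coeff_fin_sum (fun m => FN q x m c) (fun n hn => by rw [FN_of_gt q x hn]; rfl) k
  have hcoefH : ∀ r' k, coeff k (Tr qh xh r' G c) = gJ q k * TT q x k r' c := by
    intro r' k
    rw [hTrG]
    exact coeff_fin_sum (fun m => gJ q m * TT q x m r' c)
      (fun n hn => by rw [TT_of_gt q x hn]; simp) k
  -- iteration
  have hI := iter_expand qh xh (Xs * 1) (YY qh xh Xs 1) (WW qh xh Xs 1)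
    (fun a' b' h' => bethe_U qh xh Xs 1 h') (r + 1)
  have hVe := VV_eq qh xh Xs 1 c
  rw [hV, hI, Pi.add_apply, Finset.sum_apply, Pi.smul_apply, smul_eq_mul] at hVe
  simp only [Pi.smul_apply, smul_eq_mul, hW, map_smul] at hVe
  set Rem := opR qh xh (((opU qh xh) ^ (r + 1) : Module.End (PowerSeries B) (Fin N → Fin N → PowerSeries B)) (YY qh xh Xs 1)) c
    with hRem
  -- invert eps
  have heps0 : constantCoeff eps = ((1 : (B)ˣ) : B) := by
    have h := Lam_top_expand q x (C : B →+* PowerSeries B) (X : PowerSeries B)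
    have h2 : eps = ∑ m ∈ range (N + 1), C (q ^ m * eN x m) * X ^ m := h
    rw [← PowerSeries.coeff_zero_eq_constantCoeff_apply, h2]
    rw [coeff_fin_sum (fun m => q ^ m * eN x m) (fun n hn => by rw [eN_of_gt x hn, mul_zero]) 0]
    simp [eN_zero]
  have hinv : eps * PowerSeries.invOfUnit eps 1 = 1 := PowerSeries.mul_invOfUnit eps 1 heps0
  set epi := PowerSeries.invOfUnit eps 1 with hepi
  set Dd : PowerSeries B := PP qh xh Xs c - G c
      - ∑ r' ∈ range (r + 1), X ^ (r' + 1) * Tr qh xh r' G c with hDd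
  have hfin : (1 - qh) * Dd = X ^ (r + 1 + 1) * (epi * Rem) := by
    have hs : Xs * 1 = (X : PowerSeries B) := by simp [Xs]
    rw [hs] at hVe
    have hsum : ∑ i ∈ range (r + 1), (X : PowerSeries B) ^ i * (eps * (1 - qh) * Tr qh xh i G c)
        = eps * (1 - qh) * ∑ i ∈ range (r + 1), X ^ i * Tr qh xh i G c := by
      rw [mul_sum]
      refine sum_congr rfl fun i _ => ?_
      ring
    have hsum2 : ∑ i ∈ range (r + 1), (X : PowerSeries B) ^ (i + 1) * Tr qh xh i G c
        = X * ∑ i ∈ range (r + 1), X ^ i * Tr qh xh i G c := by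
      rw [mul_sum]
      refine sum_congr rfl fun i _ => ?_
      ring
    rw [hsum] at hVe
    rw [hDd, hsum2]
    have hXs : Xs = (X : PowerSeries B) := rfl
    rw [hXs] at hVe
    linear_combination (epi) * hVe
      - (((1 - qh) * (PP qh xh X c - G c - X * ∑ i ∈ range (r + 1), X ^ i * Tr qh xh i G c))) * hinv
  have hzero : coeff (r + 1) Dd = 0 := by
    have h1 := congrArg (coeff (r + 1)) hfin
    rw [PowerSeries.coeff_X_pow_mul', if_neg (by omega)] at h1
    have h2 : (1 - qh) = C (1 - q) := by simp [qh]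
    rw [h2, PowerSeries.coeff_C_mul] at h1
    have h3 : 1 - q ≠ 0 := sub_ne_zero.mpr (Ne.symm hq)
    exact (mul_eq_zero.mp h1).resolve_left h3
  rw [hDd, map_sub, map_sub, hcoefG] at hzero
  have hXs' : Xs = (X : PowerSeries B) := rfl
  rw [hXs'] at hcoefP
  rw [hcoefP, map_sum] at hzero
  have h3 : ∑ x_1 ∈ range (r + 1), coeff (r + 1) ((X : PowerSeries B) ^ (x_1 + 1) * Tr qh xh x_1 G c)
      = ∑ r' ∈ range (r + 1), gJ q (r - r') * TT q x (r - r') r' c := by
    refine sum_congr rfl fun r' hr' => ?_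
    have hr := mem_range.mp hr'
    rw [PowerSeries.coeff_X_pow_mul', if_pos (by omega), hcoefH]
    congr 2 <;> omega
  rw [h3] at hzero
  have h4 : ∑ r' ∈ range (r + 1), gJ q (r - r') * TT q x (r - r') r' c
      = ∑ m ∈ range (r + 1), gJ q m * TT q x m (r - m) c := by
    rw [← sum_range_reflect (fun m => gJ q m * TT q x m (r - m) c) (r + 1)]
    refine sum_congr rfl fun r' hr' => ?_
    have hr := mem_range.mp hr'
    have h5 : r + 1 - 1 - r' = r - r' := by omega
    have h6 : r - (r - r') = r' := by omega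
    simp only [h5, h6]
  rw [h4, sum_range_succ'] at hzero
  have h7 : ∑ k ∈ Ico 1 (r + 1), q * qi q (k - 1) * TT q x k (r - k) c
      = ∑ m ∈ range r, q * qi q m * TT q x (m + 1) (r - (m + 1)) c := by
    rw [sum_Ico_eq_sum_range]
    simp only [Nat.add_sub_cancel]
    refine sum_congr rfl fun m _ => ?_
    rw [add_comm 1 m]
    simp
  rw [h7]
  have h8 : ∑ k ∈ range r, gJ q (k + 1) * TT q x (k + 1) (r - (k + 1)) c
      = - ∑ m ∈ range r, q * qi q m * TT q x (m + 1) (r - (m + 1)) c := by
    rw [← sum_neg_distrib]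
    refine sum_congr rfl fun m _ => ?_
    simp only [gJ]
    ring
  rw [h8] at hzero
  have h9 : gJ q (r + 1) = -(q * qi q r) := rfl
  have h10 : gJ q 0 = 1 := rfl
  rw [h9, h10] at hzero
  simp only [Nat.sub_zero] at hzero
  have h11 := qi_succ' q r
  rw [h11]
  linear_combination (-1 : B) * hzero

end jrec

end Vale.Agent.Lib.P066B
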